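import Vale.Agent.P233.H561.Prec

/-!
# P233, row E12, part 2: dyadic windows
-/

open MeasureTheory Filter Topology Set
open scoped ENNReal NNReal

namespace Vale.Agent.P233.H561

/-- composition of an absolutely continuous function with a Lipschitz function -/
theorem ac_comp {e : ℝ → ℝ} {a b : ℝ} (he : AbsolutelyContinuousOnInterval e a b) {F : ℝ → ℝ}
    {s : Set ℝ} {K : ℝ≥0} (hF : LipschitzOnWith K F s) (hs : MapsTo e (uIcc a b) s) :
    AbsolutelyContinuousOnInterval (fun t => F (e t)) a b := by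
  rw [absolutelyContinuousOnInterval_iff] at he ⊢
  intro ε hε
  obtain ⟨δ, hδ, h⟩ := he (ε / (K + 1)) (by positivity)
  refine ⟨δ, hδ, fun E hE hE' => ?_⟩
  have h1 := h E hE hE'
  have hm : ∀ i ∈ Finset.range E.1, (E.2 i).1 ∈ uIcc a b ∧ (E.2 i).2 ∈ uIcc a b := fun i hi => by
    have := hE.1 i (by simpa using hi)
    exact this
  calc ∑ i ∈ Finset.range E.1, dist (F (e (E.2 i).1)) (F (e (E.2 i).2))
      ≤ ∑ i ∈ Finset.range E.1, K * dist (e (E.2 i).1) (e (E.2 i).2) :=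
        Finset.sum_le_sum fun i hi => hF.dist_le_mul _ (hs (hm i hi).1) _ (hs (hm i hi).2)
    _ = K * ∑ i ∈ Finset.range E.1, dist (e (E.2 i).1) (e (E.2 i).2) := by rw [Finset.mul_sum]
    _ ≤ K * (ε / (K + 1)) := by gcongr
    _ < ε := by
        have : (0 : ℝ) < K + 1 := by positivity
        rw [mul_div_assoc', div_lt_iff₀ this]
        nlinarith [K.coe_nonneg]


theorem sqrt_lip {δ : ℝ} (hδ : 0 < δ) :
    LipschitzOnWith (1 / (2 * √δ)).toNNReal (fun x : ℝ => √(x + δ)) (Ici 0) := by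
  refine LipschitzOnWith.of_dist_le_mul fun x hx y hy => ?_
  rw [Real.coe_toNNReal _ (by positivity), Real.dist_eq, Real.dist_eq]
  have hx' : 0 ≤ x := hx
  have hy' : 0 ≤ y := hy
  have e1 : √(x + δ) ^ 2 = x + δ := Real.sq_sqrt (by positivity)
  have e2 : √(y + δ) ^ 2 = y + δ := Real.sq_sqrt (by positivity)
  have e3 : √δ ≤ √(x + δ) := Real.sqrt_le_sqrt (by linarith)
  have e4 : √δ ≤ √(y + δ) := Real.sqrt_le_sqrt (by linarith)
  have hd : 0 < √δ := Real.sqrt_pos.2 hδ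
  have e5 : (√(x + δ) - √(y + δ)) * (√(x + δ) + √(y + δ)) = x - y := by nlinarith
  rw [← e5, abs_mul, abs_of_pos (show 0 < √(x + δ) + √(y + δ) by linarith)]
  have e6 : 1 ≤ 1 / (2 * √δ) * (√(x + δ) + √(y + δ)) := by
    rw [div_mul_eq_mul_div, le_div_iff₀ (by positivity)]
    linarith
  nlinarith [abs_nonneg (√(x + δ) - √(y + δ))]

theorem sqrt_inc {e e' φ : ℝ → ℝ} {a b : ℝ}
    (he0 : ∀ t ∈ Icc a b, 0 ≤ e t) (hint : IntervalIntegrable e' volume a b)
    (hφ : IntervalIntegrable φ volume a b) (hφ0 : ∀ t ∈ Icc a b, 0 ≤ φ t)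
    (he : ∀ t ∈ Icc a b, e t = e a + ∫ r in a..t, e' r)
    (hb : ∀ᵐ r, r ∈ Icc a b → |e' r| ≤ 2 * φ r * √(e r)) {s t : ℝ} (hs : s ∈ Icc a b)
    (ht : t ∈ Icc a b) : |√(e t) - √(e s)| ≤ |∫ r in s..t, φ r| := by
  have hab : a ≤ b := hs.1.trans hs.2
  set E : ℝ → ℝ := fun t => e a + ∫ r in a..t, e' r with hE
  have hEe : ∀ t ∈ Icc a b, E t = e t := fun t ht => (he t ht).symm
  have hE0 : ∀ t ∈ Icc a b, 0 ≤ E t := fun t ht => by rw [hEe t ht]; exact he0 t ht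
  have hac : AbsolutelyContinuousOnInterval E a b := by
    have h1 : AbsolutelyContinuousOnInterval (fun _ : ℝ => e a) a b :=
      (LipschitzWith.const (e a)).lipschitzOnWith.absolutelyContinuousOnInterval
    exact h1.add (hint.absolutelyContinuousOnInterval_intervalIntegral left_mem_uIcc)
  have hder : ∀ᵐ r, r ∈ Icc a b → HasDerivAt E (e' r) r := by
    filter_upwards [hint.ae_hasDerivAt_integral] with r hr hr'
    rw [uIcc_of_le hab] at hr
    exact (hr hr' a ⟨le_rfl, hab⟩).const_add _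
  have hst : uIcc s t ⊆ Icc a b := uIcc_subset_Icc hs ht
  -- the regularised statement
  have key : ∀ δ > 0, |√(e t + δ) - √(e s + δ)| ≤ |∫ r in s..t, φ r| := by
    intro δ hδ
    have hacs : AbsolutelyContinuousOnInterval (fun t => √(E t + δ)) s t :=
      ac_comp (F := fun x : ℝ => √(x + δ)) (s := Ici 0)
        (hac.mono (by rw [uIcc_of_le hab]; exact hst)) (sqrt_lip hδ) fun r hr => hE0 r (hst hr)
    have h1 := hacs.integral_deriv_eq_sub
    rw [← hEe t ht, ← hEe s hs, ← h1, ← Real.norm_eq_abs]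
    refine intervalIntegral.norm_integral_le_abs_of_norm_le ?_
      (hφ.mono_set (by rw [uIcc_of_le hab]; exact hst))
    rw [ae_restrict_iff' measurableSet_uIoc]
    filter_upwards [hder, hb] with r r1 r2 r3
    have hr : r ∈ Icc a b := hst (uIoc_subset_uIcc r3)
    have h0 : 0 < E r + δ := by linarith [hE0 r hr]
    have h2 : HasDerivAt (fun t => √(E t + δ)) (e' r / (2 * √(E r + δ))) r :=
      ((r1 hr).add_const δ).sqrt h0.ne'
    rw [h2.deriv, Real.norm_eq_abs, abs_div, abs_of_pos (show 0 < 2 * √(E r + δ) by positivity),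
      div_le_iff₀ (by positivity)]
    refine (r2 hr).trans ?_
    rw [← hEe r hr]
    have h3 : √(E r) ≤ √(E r + δ) := Real.sqrt_le_sqrt (by linarith)
    nlinarith [hφ0 r hr, mul_le_mul_of_nonneg_left h3 (hφ0 r hr)]
  have hlim : Tendsto (fun δ : ℝ => |√(e t + δ) - √(e s + δ)|) (𝓝[>] 0)
      (𝓝 |√(e t) - √(e s)|) := by
    have hc : Continuous fun δ : ℝ => |√(e t + δ) - √(e s + δ)| := by fun_prop
    have := (hc.tendsto 0).mono_left (nhdsWithin_le_nhds (s := Ioi 0))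
    simpa using this
  exact le_of_tendsto hlim (by filter_upwards [self_mem_nhdsWithin] with δ hδ using key δ hδ)

/-- dyadic points of `[a,b]` -/
noncomputable def pt (a b : ℝ) (k i : ℕ) : ℝ := a + (b - a) * i / 2 ^ k

theorem pt_mem {a b : ℝ} (hab : a ≤ b) {k i : ℕ} (hi : i ≤ 2 ^ k) : pt a b k i ∈ Icc a b := by
  unfold pt
  have h0 : (0 : ℝ) < 2 ^ k := by positivity
  have h1 : (i : ℝ) ≤ 2 ^ k := by exact_mod_cast hi
  have h2 : 0 ≤ b - a := by linarith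
  constructor
  · have : 0 ≤ (b - a) * i / 2 ^ k := by positivity
    linarith
  · have : (b - a) * i / 2 ^ k ≤ b - a := by
      rw [div_le_iff₀ h0]
      exact mul_le_mul_of_nonneg_left h1 h2
    linarith

theorem pt_sub (a b : ℝ) (k i : ℕ) : pt a b k (i + 1) - pt a b k i = (b - a) / 2 ^ k := by
  unfold pt
  push_cast
  ring

theorem exists_pt {a b : ℝ} (hab : a < b) (k : ℕ) {t : ℝ} (ht : t ∈ Icc a b) :
    ∃ i < 2 ^ k, t ∈ Icc (pt a b k i) (pt a b k (i + 1)) := by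
  have h0 : (0 : ℝ) < 2 ^ k := by positivity
  have hb : 0 < b - a := by linarith
  by_cases h : t = b
  · refine ⟨2 ^ k - 1, Nat.sub_lt (by positivity) one_pos, ?_⟩
    have h1 : 2 ^ k - 1 + 1 = 2 ^ k := Nat.sub_add_cancel Nat.one_le_two_pow
    rw [h1]
    have h2 : pt a b k (2 ^ k) = b := by
      unfold pt
      push_cast
      field_simp
      ring
    refine ⟨?_, by rw [h, h2]⟩
    rw [h]
    exact (pt_mem hab.le (Nat.sub_le _ _)).2
  · have htb : t < b := lt_of_le_of_ne ht.2 h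
    set x : ℝ := (t - a) * 2 ^ k / (b - a) with hx
    have hx0 : 0 ≤ x := by have := ht.1; have : 0 ≤ t - a := by linarith
                           positivity
    have hx1 : x < 2 ^ k := by
      rw [hx, div_lt_iff₀ hb, mul_comm]
      exact mul_lt_mul_of_pos_left (by linarith) h0
    refine ⟨⌊x⌋₊, ?_, ?_, ?_⟩
    · rw [Nat.floor_lt hx0]
      exact_mod_cast hx1
    · have := Nat.floor_le hx0
      unfold pt
      have h3 : (b - a) * (⌊x⌋₊ : ℝ) / 2 ^ k ≤ t - a := by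
        rw [div_le_iff₀ h0]
        calc (b - a) * (⌊x⌋₊ : ℝ) ≤ (b - a) * x := by gcongr
          _ = (t - a) * 2 ^ k := by rw [hx]; field_simp
      linarith
    · have := Nat.lt_floor_add_one x
      unfold pt
      have h3 : t - a ≤ (b - a) * ((⌊x⌋₊ + 1 : ℕ) : ℝ) / 2 ^ k := by
        rw [le_div_iff₀ h0]
        calc (t - a) * 2 ^ k = (b - a) * x := by rw [hx]; field_simp
          _ ≤ (b - a) * ((⌊x⌋₊ + 1 : ℕ) : ℝ) := by push_cast; gcongr
      linarith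

variable {Y M : Type*} [MeasurableSpace Y] [MeasurableSpace M] {μ : Measure Y} {m : Measure M}
  {X : ℝ → Y → M} {a b : ℝ} {C : ℝ≥0}

/-- **Windows.** -/
theorem Comp.windows [SFinite μ] (h : Comp μ m X a b C) (hab : a ≤ b) {g : ℕ → ℕ → M → ℝ≥0∞}
    (hg : ∀ k i, Measurable (g k i)) {K : ℝ≥0∞} (hK : K ≠ ∞)
    (hgK : ∀ k i, i < 2 ^ k → ∫⁻ x, g k i x ^ 2 ∂m ≤ K) :
    ∀ᵐ y ∂μ, Tendsto (fun k => ∑ i ∈ Finset.range (2 ^ k),
      (∫⁻ t in Icc (pt a b k i) (pt a b k (i + 1)), g k i (X t y)) ^ 2) atTop (𝓝 0) := by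
  have hm : ∀ k i, Measurable fun y =>
      (∫⁻ t in Icc (pt a b k i) (pt a b k (i + 1)), g k i (X t y)) ^ 2 := fun k i =>
    (Measurable.lintegral_prod_left' (f := fun p : ℝ × Y => g k i (X p.1 p.2))
      ((hg k i).comp h.meas)).pow_const 2
  have h1 : ∀ k, ∫⁻ y, ∑ i ∈ Finset.range (2 ^ k),
      (∫⁻ t in Icc (pt a b k i) (pt a b k (i + 1)), g k i (X t y)) ^ 2 ∂μ ≤
      ENNReal.ofReal (b - a) ^ 2 * C * K * 2⁻¹ ^ k := by
    intro k
    rw [lintegral_finsetSum _ fun i _ => hm k i]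
    have h2 : ∀ i ∈ Finset.range (2 ^ k), ∫⁻ y,
        (∫⁻ t in Icc (pt a b k i) (pt a b k (i + 1)), g k i (X t y)) ^ 2 ∂μ ≤
        (ENNReal.ofReal (b - a) * 2⁻¹ ^ k) ^ 2 * C * K := by
      intro i hi
      rw [Finset.mem_range] at hi
      refine (h.sq_le (hg k i) (Icc_subset_Icc (pt_mem hab hi.le).1
        (pt_mem hab (Nat.succ_le_of_lt hi)).2)).trans ?_
      rw [pt_sub, div_eq_mul_inv, ENNReal.ofReal_mul (by linarith), ← inv_pow,
        ENNReal.ofReal_pow (by norm_num), ENNReal.ofReal_inv_of_pos (by norm_num),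
        ENNReal.ofReal_ofNat]
      gcongr
      exact hgK k i hi
    refine (Finset.sum_le_sum h2).trans ?_
    rw [Finset.sum_const, Finset.card_range, nsmul_eq_mul]
    push_cast
    have h3 : (2 : ℝ≥0∞) ^ k * 2⁻¹ ^ k = 1 := by
      rw [← mul_pow, ENNReal.mul_inv_cancel (by norm_num) (by norm_num), one_pow]
    calc (2 : ℝ≥0∞) ^ k * ((ENNReal.ofReal (b - a) * 2⁻¹ ^ k) ^ 2 * C * K)
        = (2 ^ k * 2⁻¹ ^ k) * (ENNReal.ofReal (b - a) ^ 2 * C * K * 2⁻¹ ^ k) := by ring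
      _ ≤ _ := by rw [h3, one_mul]
  have hS : ∫⁻ y, ∑' k, ∑ i ∈ Finset.range (2 ^ k),
      (∫⁻ t in Icc (pt a b k i) (pt a b k (i + 1)), g k i (X t y)) ^ 2 ∂μ ≠ ∞ := by
    rw [lintegral_tsum fun k => (Finset.measurable_fun_sum _ fun i _ => hm k i).aemeasurable]
    refine ne_top_of_le_ne_top ?_ (ENNReal.tsum_le_tsum h1)
    rw [ENNReal.tsum_mul_left, ENNReal.tsum_geometric]
    refine ENNReal.mul_ne_top (ENNReal.mul_ne_top (ENNReal.mul_ne_top
      (ENNReal.pow_ne_top ENNReal.ofReal_ne_top) ENNReal.coe_ne_top) hK) ?_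
    norm_num
  filter_upwards [ae_lt_top' (AEMeasurable.tsum fun k =>
    (Finset.measurable_fun_sum _ fun i _ => hm k i).aemeasurable) hS] with y hy
  exact ENNReal.tendsto_atTop_zero_of_tsum_ne_top hy.ne


theorem abs_intervalIntegral_le {f : ℝ → ℝ} {s t c d : ℝ} (hs : s ∈ Icc c d) (ht : t ∈ Icc c d)
    (hf : ∫⁻ r in Icc c d, ‖f r‖ₑ ≠ ∞) :
    |∫ r in s..t, f r| ≤ (∫⁻ r in Icc c d, ‖f r‖ₑ).toReal := by
  have h := ENNReal.toReal_mono hf (enorm_intervalIntegral_le (f := f) hs ht)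
  rwa [toReal_enorm, Real.norm_eq_abs] at h

/-- **The strong velocity lemma (E2), path part.** For every dyadic time `t₀ = pt a b k i` there is
a sequence of functions `e k i j t y ≥ 0` (`= |∇h - v|²(X_t y)`, `h = h_{k,i,j}`), with
`√e` Lipschitz against `H k i j` (`= |Hess h|`), with `e k i j t₀ y → 0` as `j → ∞`, and
`H k i j → H k i` fast in `L²`, `‖H k i‖₂² ≤ K`. Then for a.e. `y`, at EVERY time `t`,
`inf e k i j t y = 0`. -/
theorem Comp.strong [SFinite μ] (h : Comp μ m X a b C) (hab : a < b) {l : Y → ℝ}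
    {H : ℕ → ℕ → M → ℝ} (hH : ∀ k i, Measurable (H k i)) {K : ℝ≥0∞} (hK : K ≠ ∞)
    (hHK : ∀ k i, i < 2 ^ k → ∫⁻ x, ‖H k i x‖ₑ ^ 2 ∂m ≤ K)
    {Hj : ℕ → ℕ → ℕ → M → ℝ} (hHj : ∀ k i j, Measurable (Hj k i j))
    (hconv : ∀ k i, i < 2 ^ k → ∑' j, 2 ^ j * ∫⁻ x, ‖Hj k i j x - H k i x‖ₑ ^ 2 ∂m ≠ ∞)
    {e : ℕ → ℕ → ℕ → ℝ → Y → ℝ} (he0 : ∀ k i j, i < 2 ^ k → ∀ᵐ y ∂μ, ∀ t ∈ Icc a b, 0 ≤ e k i j t y)
    (hinc : ∀ k i j, i < 2 ^ k → ∀ᵐ y ∂μ, ∀ s ∈ Icc a b, ∀ t ∈ Icc a b,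
      |√(e k i j t y) - √(e k i j s y)| ≤ l y * |∫ r in s..t, Hj k i j (X r y)|)
    (hst : ∀ k i, i < 2 ^ k → ∀ᵐ y ∂μ, Tendsto (fun j => e k i j (pt a b k i) y) atTop (𝓝 0)) :
    ∀ᵐ y ∂μ, ∀ t ∈ Icc a b, ∀ δ > 0, ∃ k i j, i < 2 ^ k ∧ e k i j t y < δ := by
  have w1 := h.windows hab.le (fun k i => (hH k i).enorm) hK hHK
  have w2 : ∀ᵐ y ∂μ, ∀ k i, i < 2 ^ k →
      ∑' j, ∫⁻ t in Icc a b, ‖Hj k i j (X t y) - H k i (X t y)‖ₑ ≠ ∞ :=
    ae_all_iff.2 fun k => ae_all_iff.2 fun i => by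
      by_cases hi : i < 2 ^ k
      · filter_upwards [h.tsum_curve (fun j => ((hHj k i j).sub (hH k i)).enorm) (hconv k i hi)]
          with y hy _ using hy
      · exact Eventually.of_forall fun y h' => absurd h' hi
  have w3 : ∀ᵐ y ∂μ, ∀ k i j, i < 2 ^ k → (∀ t ∈ Icc a b, 0 ≤ e k i j t y) ∧
      ∀ s ∈ Icc a b, ∀ t ∈ Icc a b,
        |√(e k i j t y) - √(e k i j s y)| ≤ l y * |∫ r in s..t, Hj k i j (X r y)| :=
    ae_all_iff.2 fun k => ae_all_iff.2 fun i => ae_all_iff.2 fun j => by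
      by_cases hi : i < 2 ^ k
      · filter_upwards [he0 k i j hi, hinc k i j hi] with y h1 h2 _ using ⟨h1, h2⟩
      · exact Eventually.of_forall fun y h' => absurd h' hi
  have w4 : ∀ᵐ y ∂μ, ∀ k i, i < 2 ^ k → Tendsto (fun j => e k i j (pt a b k i) y) atTop (𝓝 0) :=
    ae_all_iff.2 fun k => ae_all_iff.2 fun i => by
      by_cases hi : i < 2 ^ k
      · filter_upwards [hst k i hi] with y hy _ using hy
      · exact Eventually.of_forall fun y h' => absurd h' hi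
  filter_upwards [w1, w2, w3, w4] with y y1 y2 y3 y4 t ht δ hδ
  set L : ℝ := |l y| + 1 with hL
  have hL0 : 0 < L := by positivity
  have hlL : l y ≤ L := (le_abs_self _).trans (by linarith)
  set η : ℝ := √δ / (4 * L) with hη
  have hη0 : 0 < η := by have := Real.sqrt_pos.2 hδ; positivity
  -- choose the level
  have hev := (tendsto_order.1 y1).2 (ENNReal.ofReal (η ^ 2))
    (ENNReal.ofReal_pos.2 (by positivity))
  obtain ⟨k, hk⟩ := hev.exists
  obtain ⟨i, hi, hti⟩ := exists_pt hab k ht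
  have hpi : pt a b k i ∈ Icc a b := pt_mem hab.le hi.le
  have hw : ∫⁻ r in Icc (pt a b k i) (pt a b k (i + 1)), ‖H k i (X r y)‖ₑ ≤ ENNReal.ofReal η := by
    have h1 : (∫⁻ r in Icc (pt a b k i) (pt a b k (i + 1)), ‖H k i (X r y)‖ₑ) ^ 2 ≤
        ENNReal.ofReal (η ^ 2) :=
      (Finset.single_le_sum (f := fun i => (∫⁻ t in Icc (pt a b k i) (pt a b k (i + 1)),
        ‖H k i (X t y)‖ₑ) ^ 2) (fun _ _ => bot_le) (Finset.mem_range.2 hi)).trans hk.le
    rw [ENNReal.ofReal_pow hη0.le] at h1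
    exact (ENNReal.pow_le_pow_left_iff two_ne_zero).1 h1
  have hwt : ∫⁻ r in Icc (pt a b k i) (pt a b k (i + 1)), ‖H k i (X r y)‖ₑ ≠ ∞ :=
    ne_top_of_le_ne_top ENNReal.ofReal_ne_top hw
  -- choose the approximation
  have ha1 : Tendsto (fun j => ∫⁻ t in Icc a b, ‖Hj k i j (X t y) - H k i (X t y)‖ₑ) atTop (𝓝 0) :=
    ENNReal.tendsto_atTop_zero_of_tsum_ne_top (y2 k i hi)
  have ha2 := (tendsto_order.1 ha1).2 (ENNReal.ofReal η) (ENNReal.ofReal_pos.2 hη0)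
  have ha3 : ∀ᶠ j in atTop, √(e k i j (pt a b k i) y) < √δ / 4 := by
    have h1 : Tendsto (fun j => √(e k i j (pt a b k i) y)) atTop (𝓝 (√0)) :=
      (Real.continuous_sqrt.tendsto 0).comp (y4 k i hi)
    rw [Real.sqrt_zero] at h1
    exact (tendsto_order.1 h1).2 _ (by have := Real.sqrt_pos.2 hδ; positivity)
  obtain ⟨j, hj1, hj2⟩ := (ha2.and ha3).exists
  refine ⟨k, i, j, hi, ?_⟩
  obtain ⟨z0, z1⟩ := y3 k i j hi
  have z2 := z1 _ hpi t ht
  -- the integral of `Hj`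
  have h5 : ‖∫ r in pt a b k i..t, Hj k i j (X r y)‖ₑ ≤ ENNReal.ofReal (2 * η) := by
    refine (enorm_intervalIntegral_le (c := pt a b k i) (d := t) ⟨le_rfl, hti.1⟩
      ⟨hti.1, le_rfl⟩).trans ?_
    have hsub : Icc (pt a b k i) t ⊆ Icc (pt a b k i) (pt a b k (i + 1)) :=
      Icc_subset_Icc_right hti.2
    have hsub' : Icc (pt a b k i) t ⊆ Icc a b := Icc_subset_Icc hpi.1 ht.2
    calc ∫⁻ r in Icc (pt a b k i) t, ‖Hj k i j (X r y)‖ₑ
        ≤ ∫⁻ r in Icc (pt a b k i) t, (‖H k i (X r y)‖ₑ + ‖Hj k i j (X r y) - H k i (X r y)‖ₑ) := by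
          refine lintegral_mono fun r => ?_
          calc ‖Hj k i j (X r y)‖ₑ = ‖H k i (X r y) + (Hj k i j (X r y) - H k i (X r y))‖ₑ := by
                rw [add_sub_cancel]
            _ ≤ _ := enorm_add_le _ _
      _ = (∫⁻ r in Icc (pt a b k i) t, ‖H k i (X r y)‖ₑ) +
          ∫⁻ r in Icc (pt a b k i) t, ‖Hj k i j (X r y) - H k i (X r y)‖ₑ :=
          lintegral_add_left ((hH k i).enorm.comp (h.meas.comp measurable_prodMk_right)) _
      _ ≤ ENNReal.ofReal η + ENNReal.ofReal η := by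
          gcongr
          · exact (lintegral_mono_set hsub).trans hw
          · exact (lintegral_mono_set hsub').trans hj1.le
      _ = ENNReal.ofReal (2 * η) := by rw [← ENNReal.ofReal_add hη0.le hη0.le]; ring_nf
  have h6 : |∫ r in pt a b k i..t, Hj k i j (X r y)| ≤ 2 * η := by
    have := ENNReal.toReal_mono ENNReal.ofReal_ne_top h5
    rwa [toReal_enorm, Real.norm_eq_abs, ENNReal.toReal_ofReal (by positivity)] at this
  have h7 : √(e k i j t y) ≤ √δ / 4 + L * (2 * η) := by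
    have h8 : l y * |∫ r in pt a b k i..t, Hj k i j (X r y)| ≤ L * (2 * η) := by
      calc l y * |∫ r in pt a b k i..t, Hj k i j (X r y)|
          ≤ L * |∫ r in pt a b k i..t, Hj k i j (X r y)| := by gcongr
        _ ≤ L * (2 * η) := by gcongr
    have h9 := (abs_le.1 z2).2
    linarith
  have h10 : L * (2 * η) = √δ / 2 := by
    rw [hη]
    field_simp
    ring
  have h11 : √(e k i j t y) < √δ := by
    have := Real.sqrt_pos.2 hδ
    linarith
  exact (Real.sqrt_lt_sqrt_iff (z0 t ht)).1 h11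

/-- **The strong velocity lemma (E2), second form**: one function per window, with a base time
`τ k i` in the window. -/
theorem Comp.strong' [SFinite μ] (h : Comp μ m X a b C) (hab : a < b) {l : Y → ℝ}
    {H : ℕ → ℕ → M → ℝ} (hH : ∀ k i, Measurable (H k i)) {K : ℝ≥0∞} (hK : K ≠ ∞)
    (hHK : ∀ k i, i < 2 ^ k → ∫⁻ x, ‖H k i x‖ₑ ^ 2 ∂m ≤ K)
    {τ : ℕ → ℕ → ℝ} (hτ : ∀ k i, i < 2 ^ k → τ k i ∈ Icc (pt a b k i) (pt a b k (i + 1)))
    {e : ℕ → ℕ → ℝ → Y → ℝ} (he0 : ∀ k i, i < 2 ^ k → ∀ᵐ y ∂μ, ∀ t ∈ Icc a b, 0 ≤ e k i t y)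
    (hinc : ∀ k i, i < 2 ^ k → ∀ᵐ y ∂μ, ∀ s ∈ Icc a b, ∀ t ∈ Icc a b,
      |√(e k i t y) - √(e k i s y)| ≤ l y * |∫ r in s..t, H k i (X r y)|)
    {g : ℕ → ℕ → Y → ℝ≥0∞} (hg : ∀ k i, AEMeasurable (g k i) μ)
    (hg1 : ∀ k i, i < 2 ^ k → ∀ᵐ y ∂μ, ENNReal.ofReal (e k i (τ k i) y) ≤ g k i y)
    (hg2 : ∀ k i, i < 2 ^ k → ∫⁻ y, g k i y ∂μ ≤ 4⁻¹ ^ k) :
    ∀ᵐ y ∂μ, ∀ t ∈ Icc a b, ∀ δ > 0, ∃ k i, i < 2 ^ k ∧ e k i t y < δ := by
  have w1 := h.windows hab.le (fun k i => (hH k i).enorm) hK hHK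
  have w3 : ∀ᵐ y ∂μ, ∀ k i, i < 2 ^ k → (∀ t ∈ Icc a b, 0 ≤ e k i t y) ∧
      (∀ s ∈ Icc a b, ∀ t ∈ Icc a b,
        |√(e k i t y) - √(e k i s y)| ≤ l y * |∫ r in s..t, H k i (X r y)|) ∧
      ENNReal.ofReal (e k i (τ k i) y) ≤ g k i y :=
    ae_all_iff.2 fun k => ae_all_iff.2 fun i => by
      by_cases hi : i < 2 ^ k
      · filter_upwards [he0 k i hi, hinc k i hi, hg1 k i hi] with y h1 h2 h3 _ using ⟨h1, h2, h3⟩
      · exact Eventually.of_forall fun y h' => absurd h' hi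
  have w4 : ∀ᵐ y ∂μ, Tendsto (fun k => ∑ i ∈ Finset.range (2 ^ k), g k i y) atTop (𝓝 0) := by
    have hm : ∀ k, AEMeasurable (fun y => ∑ i ∈ Finset.range (2 ^ k), g k i y) μ := fun k =>
      Finset.aemeasurable_fun_sum _ fun i _ => hg k i
    have hS : ∫⁻ y, ∑' k, ∑ i ∈ Finset.range (2 ^ k), g k i y ∂μ ≠ ∞ := by
      rw [lintegral_tsum hm]
      have h1 : ∀ k, ∫⁻ y, ∑ i ∈ Finset.range (2 ^ k), g k i y ∂μ ≤ 2⁻¹ ^ k := by
        intro k
        rw [lintegral_finsetSum' _ fun i _ => hg k i]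
        refine (Finset.sum_le_sum fun i hi => hg2 k i (Finset.mem_range.1 hi)).trans ?_
        rw [Finset.sum_const, Finset.card_range, nsmul_eq_mul]
        push_cast
        rw [← mul_pow]
        refine pow_le_pow_left' ?_ k
        rw [show (4 : ℝ≥0∞) = 2 * 2 by norm_num, ENNReal.mul_inv (by norm_num) (by norm_num),
          ← mul_assoc, ENNReal.mul_inv_cancel (by norm_num) (by norm_num), one_mul]
      refine ne_top_of_le_ne_top ?_ (ENNReal.tsum_le_tsum h1)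
      rw [ENNReal.tsum_geometric]
      norm_num
    filter_upwards [ae_lt_top' (AEMeasurable.tsum hm) hS] with y hy
    exact ENNReal.tendsto_atTop_zero_of_tsum_ne_top hy.ne
  filter_upwards [w1, w3, w4] with y y1 y3 y4 t ht δ hδ
  set L : ℝ := |l y| + 1 with hL
  have hL0 : 0 < L := by positivity
  have hlL : l y ≤ L := (le_abs_self _).trans (by linarith)
  set η : ℝ := √δ / (4 * L) with hη
  have hη0 : 0 < η := by have := Real.sqrt_pos.2 hδ; positivity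
  -- choose the level
  have hev := (tendsto_order.1 y1).2 (ENNReal.ofReal (η ^ 2))
    (ENNReal.ofReal_pos.2 (by positivity))
  have hev2 := (tendsto_order.1 y4).2 (ENNReal.ofReal (δ / 16))
    (ENNReal.ofReal_pos.2 (by positivity))
  obtain ⟨k, hk, hk2⟩ := (hev.and hev2).exists
  obtain ⟨i, hi, hti⟩ := exists_pt hab k ht
  have hpi : pt a b k i ∈ Icc a b := pt_mem hab.le hi.le
  have hpi' : pt a b k (i + 1) ∈ Icc a b := pt_mem hab.le (Nat.succ_le_of_lt hi)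
  have hτi := hτ k i hi
  have hτab : τ k i ∈ Icc a b := ⟨hpi.1.trans hτi.1, hτi.2.trans hpi'.2⟩
  have hw : ∫⁻ r in Icc (pt a b k i) (pt a b k (i + 1)), ‖H k i (X r y)‖ₑ ≤ ENNReal.ofReal η := by
    have h1 : (∫⁻ r in Icc (pt a b k i) (pt a b k (i + 1)), ‖H k i (X r y)‖ₑ) ^ 2 ≤
        ENNReal.ofReal (η ^ 2) :=
      (Finset.single_le_sum (f := fun i => (∫⁻ t in Icc (pt a b k i) (pt a b k (i + 1)),
        ‖H k i (X t y)‖ₑ) ^ 2) (fun _ _ => bot_le) (Finset.mem_range.2 hi)).trans hk.le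
    rw [ENNReal.ofReal_pow hη0.le] at h1
    exact (ENNReal.pow_le_pow_left_iff two_ne_zero).1 h1
  have hwt : ∫⁻ r in Icc (pt a b k i) (pt a b k (i + 1)), ‖H k i (X r y)‖ₑ ≠ ∞ :=
    ne_top_of_le_ne_top ENNReal.ofReal_ne_top hw
  obtain ⟨z0, z1, z3⟩ := y3 k i hi
  have z2 := z1 _ hτab t ht
  have h0 : e k i (τ k i) y < δ / 16 := by
    have h1 : ENNReal.ofReal (e k i (τ k i) y) < ENNReal.ofReal (δ / 16) := by
      refine lt_of_le_of_lt (z3.trans ?_) hk2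
      exact Finset.single_le_sum (f := fun i => g k i y) (fun _ _ => bot_le) (Finset.mem_range.2 hi)
    exact (ENNReal.ofReal_lt_ofReal_iff (by positivity)).1 h1
  have h0' : √(e k i (τ k i) y) < √δ / 4 := by
    rw [show √δ / 4 = √(δ / 16) by
      rw [Real.sqrt_div hδ.le, show (16 : ℝ) = 4 ^ 2 by norm_num, Real.sqrt_sq (by norm_num)]]
    exact Real.sqrt_lt_sqrt (z0 _ hτab) h0
  have h6 : |∫ r in τ k i..t, H k i (X r y)| ≤ η := by
    refine (abs_intervalIntegral_le hτi hti hwt).trans ?_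
    have := ENNReal.toReal_mono ENNReal.ofReal_ne_top hw
    rwa [ENNReal.toReal_ofReal hη0.le] at this
  have h7 : √(e k i t y) ≤ √δ / 4 + L * η := by
    have h8 : l y * |∫ r in τ k i..t, H k i (X r y)| ≤ L * η := by
      calc l y * |∫ r in τ k i..t, H k i (X r y)|
          ≤ L * |∫ r in τ k i..t, H k i (X r y)| := by gcongr
        _ ≤ L * η := by gcongr
    have h9 := (abs_le.1 z2).2
    linarith
  have h10 : L * η = √δ / 4 := by
    rw [hη]
    field_simp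
  have h11 : √(e k i t y) < √δ := by
    have := Real.sqrt_pos.2 hδ
    linarith
  exact ⟨k, i, hi, (Real.sqrt_lt_sqrt_iff (z0 t ht)).1 h11⟩

end Vale.Agent.P233.H561
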