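import Vale.Agent.P233.H561.E1
import Vale.Agent.P233.H561.Win

/-!
# P233, block E2: the velocity is a limit of test gradients at every time
-/

set_option linter.unusedSectionVars false

open MeasureTheory Filter Topology Set
open scoped ENNReal NNReal InnerProductSpace

universe u v

namespace Vale.Agent.P233.H561

section algebra

variable {E : Type v} [NormedAddCommGroup E] [InnerProductSpace ℝ E]

theorem cmb_eq {V : Type*} [AddCommGroup V] [Module ℝ V] (w : ℕ → V) (c : ℕ →₀ ℚ) :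
    cmb w c = ∑ i ∈ c.support, (c i : ℝ) • w i := rfl

theorem inner_cmb (w : ℕ → E) (c : ℕ →₀ ℚ) (v : E) :
    ⟪cmb w c, v⟫_ℝ = cmb (fun i => ⟪w i, v⟫_ℝ) c := by
  simp only [cmb_eq, sum_inner, real_inner_smul_left, smul_eq_mul]

theorem inner_cmb' (w : ℕ → E) (c : ℕ →₀ ℚ) (v : E) :
    ⟪v, cmb w c⟫_ℝ = cmb (fun i => ⟪v, w i⟫_ℝ) c := by
  simp only [cmb_eq, inner_sum, real_inner_smul_right, smul_eq_mul]

theorem cmb_clm (T : ℕ → E →L[ℝ] E) (c : ℕ →₀ ℚ) (v : E) :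
    (cmb T c) v = cmb (fun i => T i v) c := by
  simp only [cmb_eq, sum_apply, smul_apply]

theorem clm_cmb (A : E →L[ℝ] E) (w : ℕ → E) (c : ℕ →₀ ℚ) :
    A (cmb w c) = cmb (fun i => A (w i)) c := by
  simp only [cmb_eq, map_sum, map_smul]

theorem cmb_add (f g : ℕ → ℝ) (c : ℕ →₀ ℚ) :
    cmb (fun i => f i + g i) c = cmb f c + cmb g c := by
  simp only [cmb_eq, smul_eq_mul, mul_add, Finset.sum_add_distrib]

theorem cmb_sub (f g : ℕ → ℝ) (c : ℕ →₀ ℚ) :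
    cmb (fun i => f i - g i) c = cmb f c - cmb g c := by
  simp only [cmb_eq, smul_eq_mul, mul_sub, Finset.sum_sub_distrib]

theorem cmb_single {V : Type*} [AddCommGroup V] [Module ℝ V] (w : ℕ → V) (i : ℕ) :
    cmb w (Finsupp.single i 1) = w i := by
  unfold cmb
  rw [Finsupp.sum_single_index (by simp)]
  simp

/-- `|∑ cᵢ gᵢ - v|²` -/
theorem Q_eq (g : ℕ → E) (c : ℕ →₀ ℚ) (v : E) {l : ℝ} (hl : ‖v‖ = l) :
    cmb (fun i => cmb (fun j => ⟪g i, g j⟫_ℝ) c) c - 2 * cmb (fun i => ⟪g i, v⟫_ℝ) c + l ^ 2 =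
      ‖cmb g c - v‖ ^ 2 := by
  have h1 : cmb (fun i => cmb (fun j => ⟪g i, g j⟫_ℝ) c) c = ⟪cmb g c, cmb g c⟫_ℝ := by
    rw [inner_cmb]
    congr 1
    funext i
    rw [inner_cmb']
  rw [h1, ← inner_cmb, norm_sub_sq_real, hl, real_inner_self_eq_norm_sq]

/-- the derivative -/
theorem q_eq (g : ℕ → E) (T : ℕ → E →L[ℝ] E) (c : ℕ →₀ ℚ) (v : E) :
    cmb (fun i => cmb (fun j => ⟪T i (g j) + T j (g i), v⟫_ℝ) c) c
      - 2 * cmb (fun i => ⟪T i v, v⟫_ℝ) c = 2 * ⟪(cmb T c) (cmb g c - v), v⟫_ℝ := by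
  have h1 : cmb (fun i => cmb (fun j => ⟪T i (g j), v⟫_ℝ) c) c = ⟪(cmb T c) (cmb g c), v⟫_ℝ := by
    rw [cmb_clm, inner_cmb]
    congr 1
    funext i
    rw [clm_cmb, inner_cmb]
  have h2 : cmb (fun i => cmb (fun j => ⟪T j (g i), v⟫_ℝ) c) c = ⟪(cmb T c) (cmb g c), v⟫_ℝ := by
    rw [clm_cmb, inner_cmb]
    congr 1
    funext i
    rw [cmb_clm, inner_cmb]
  have h3 : cmb (fun i => ⟪T i v, v⟫_ℝ) c = ⟪(cmb T c) v, v⟫_ℝ := by
    rw [cmb_clm, inner_cmb]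
  have h4 : cmb (fun i => cmb (fun j => ⟪T i (g j) + T j (g i), v⟫_ℝ) c) c =
      cmb (fun i => cmb (fun j => ⟪T i (g j), v⟫_ℝ) c) c +
        cmb (fun i => cmb (fun j => ⟪T j (g i), v⟫_ℝ) c) c := by
    rw [← cmb_add]
    congr 1
    funext i
    rw [← cmb_add]
    congr 1
    funext j
    rw [inner_add_left]
  rw [h4, h1, h2, h3, map_sub, inner_sub_left]
  ring

/-- primitives of combinations -/
theorem cmb_prim {f : ℕ → ℝ → ℝ} {K F : ℕ → ℝ} {t : ℝ}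
    (hf : ∀ i, IntervalIntegrable (f i) volume t 1) (h : ∀ i, F i = K i - ∫ r in t..1, f i r)
    (c : ℕ →₀ ℚ) : cmb F c = cmb K c - ∫ r in t..1, cmb (fun i => f i r) c := by
  simp only [cmb_eq, smul_eq_mul]
  rw [intervalIntegral.integral_finsetSum fun i _ => (hf i).const_mul _, ← Finset.sum_sub_distrib]
  refine Finset.sum_congr rfl fun i _ => ?_
  rw [intervalIntegral.integral_const_mul, h i]
  ring

theorem cmb_intervalIntegrable {f : ℕ → ℝ → ℝ} {s t : ℝ}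
    (hf : ∀ i, IntervalIntegrable (f i) volume s t) (c : ℕ →₀ ℚ) :
    IntervalIntegrable (fun r => cmb (fun i => f i r) c) volume s t := by
  simp only [cmb_eq, smul_eq_mul]
  have h := IntervalIntegrable.sum c.support (f := fun i r => (c i : ℝ) * f i r) fun i _ =>
    (hf i).const_mul (c i : ℝ)
  rwa [Finset.sum_fn] at h

end algebra

section meas

variable {E : Type v} [NormedAddCommGroup E] [InnerProductSpace ℝ E] {α : Type*}
  [MeasurableSpace α]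

/-- measurability of `A a (W a)` for a pointwise measurable operator field -/
theorem clm_apply_meas {A : α → E →L[ℝ] E} (hA : ∀ w, StronglyMeasurable fun a => A a w)
    {W : α → E} (hW : StronglyMeasurable W) : StronglyMeasurable fun a => A a (W a) := by
  have h1 : ∀ n, StronglyMeasurable fun a => A a (hW.approx n a) := by
    intro n
    have h2 : (fun a => A a (hW.approx n a)) = fun a => ∑ w ∈ (hW.approx n).range,
        (hW.approx n ⁻¹' {w}).indicator (fun a => A a w) a := by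
      funext a
      rw [Finset.sum_eq_single (hW.approx n a)]
      · rw [indicator_of_mem (show a ∈ hW.approx n ⁻¹' {hW.approx n a} from rfl)]
      · intro w _ hw
        rw [indicator_of_notMem]
        intro h
        exact hw (by simpa using h.symm)
      · intro h
        exact absurd ((hW.approx n).mem_range_self a) h
    rw [h2]
    exact Finset.stronglyMeasurable_fun_sum _ fun w _ =>
      (hA w).indicator ((hW.approx n).measurableSet_fiber w)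
  refine stronglyMeasurable_of_tendsto atTop h1 ?_
  rw [tendsto_pi_nhds]
  intro a
  exact ((A a).continuous.tendsto _).comp (hW.tendsto_approx a)

/-- a.e. version -/
theorem clm_apply_aemeas {ν : Measure α} {A : α → E →L[ℝ] E}
    (hA : ∀ w, AEStronglyMeasurable (fun a => A a w) ν)
    {W : α → E} (hW : StronglyMeasurable W) : AEStronglyMeasurable (fun a => A a (W a)) ν := by
  have h1 : ∀ n, AEStronglyMeasurable (fun a => A a (hW.approx n a)) ν := by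
    intro n
    have h2 : (fun a => A a (hW.approx n a)) = fun a => ∑ w ∈ (hW.approx n).range,
        (hW.approx n ⁻¹' {w}).indicator (fun a => A a w) a := by
      funext a
      rw [Finset.sum_eq_single (hW.approx n a)]
      · rw [indicator_of_mem (show a ∈ hW.approx n ⁻¹' {hW.approx n a} from rfl)]
      · intro w _ hw
        rw [indicator_of_notMem]
        intro h
        exact hw (by simpa using h.symm)
      · intro h
        exact absurd ((hW.approx n).mem_range_self a) h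
    rw [h2]
    exact Finset.aestronglyMeasurable_fun_sum _ fun w _ =>
      (hA w).indicator ((hW.approx n).measurableSet_fiber w)
  refine aestronglyMeasurable_of_tendsto_ae atTop h1 (Eventually.of_forall fun a => ?_)
  exact ((A a).continuous.tendsto _).comp (hW.tendsto_approx a)

end meas

section stat

variable {M : Type u} [MetricSpace M] [MeasurableSpace M] {m : Measure M}
variable {E : Type v} [NormedAddCommGroup E] [InnerProductSpace ℝ E]
  {Gr : (M →ₘ[m] ℝ) → M → E} {HO : (M →ₘ[m] ℝ) → M → E →L[ℝ] E} {e : ℕ → M →ₘ[m] ℝ}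
  {C : Calc m}

theorem fsum_testI (hC : IsGamma C) {κ : ℝ} (hB : C.BEi κ) (he : ∀ i, e i ∈ C.TestI) (a : ℕ → ℝ)
    (s : Finset ℕ) : ∑ i ∈ s, a i • e i ∈ C.TestI := by
  classical
  induction s using Finset.induction_on with
  | empty => simpa using hC.testI_zero hB
  | insert i s hi ih =>
    rw [Finset.sum_insert hi]
    exact hC.testI_add hB (hC.testI_smul hB _ (he i)) ih

theorem fsum_gr (hC : IsGamma C) {κ : ℝ} (hB : C.BEi κ) (hG : IsGrad C Gr)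
    (he : ∀ i, e i ∈ C.TestI) (a : ℕ → ℝ) (s : Finset ℕ) :
    ∀ᵐ x ∂m, Gr (∑ i ∈ s, a i • e i) x = ∑ i ∈ s, a i • Gr (e i) x := by
  classical
  induction s using Finset.induction_on with
  | empty => simpa using hG.zero hC.toIsDir
  | insert i s hi ih =>
    rw [Finset.sum_insert hi]
    have h1 : a i • e i ∈ C.W := hC.smul_mem _ _ (hC.test_A (he i).1).1
    have h2 : ∑ i ∈ s, a i • e i ∈ C.W := (hC.test_A (fsum_testI hC hB he a s).1).1
    filter_upwards [ih, hG.add hC.toIsDir h1 h2, hG.smul hC.toIsDir (a i) (hC.test_A (he i).1).1]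
      with x x1 x2 x3
    rw [x2, x3, x1, Finset.sum_insert hi]

theorem fsum_ho (hC : IsGamma C) {κ : ℝ} (hB : C.BEi κ) 
    (hlin : ∀ b ∈ C.Test, ∀ b' ∈ C.Test, ∀ r : ℝ, ∀ᵐ x ∂m,
      HO (r • b + b') x = r • HO b x + HO b' x)
    (he : ∀ i, e i ∈ C.TestI) (a : ℕ → ℝ) (s : Finset ℕ) :
    ∀ᵐ x ∂m, HO (∑ i ∈ s, a i • e i) x = ∑ i ∈ s, a i • HO (e i) x := by
  classical
  induction s using Finset.induction_on with
  | empty =>
    have h0 := hC.test_zero hB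
    filter_upwards [hlin 0 h0 0 h0 1] with x hx
    rw [one_smul, one_smul, add_zero] at hx
    rw [Finset.sum_empty, Finset.sum_empty]
    exact left_eq_add.1 hx
  | insert i s hi ih =>
    rw [Finset.sum_insert hi]
    filter_upwards [ih, hlin _ (he i).1 _ (fsum_testI hC hB he a s).1 (a i)] with x x1 x2
    rw [x2, x1, Finset.sum_insert hi]

theorem cmb_testI (hC : IsGamma C) {κ : ℝ} (hB : C.BEi κ) (he : ∀ i, e i ∈ C.TestI)
    (c : ℕ →₀ ℚ) : cmb e c ∈ C.TestI := fsum_testI hC hB he _ _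

theorem cmb_gr (hC : IsGamma C) {κ : ℝ} (hB : C.BEi κ) (hG : IsGrad C Gr)
    (he : ∀ i, e i ∈ C.TestI) (c : ℕ →₀ ℚ) :
    ∀ᵐ x ∂m, Gr (cmb e c) x = cmb (fun i => Gr (e i) x) c := fsum_gr hC hB hG he _ _

theorem cmb_ho (hC : IsGamma C) {κ : ℝ} (hB : C.BEi κ) 
    (hlin : ∀ b ∈ C.Test, ∀ b' ∈ C.Test, ∀ r : ℝ, ∀ᵐ x ∂m,
      HO (r • b + b') x = r • HO b x + HO b' x)
    (he : ∀ i, e i ∈ C.TestI) (c : ℕ →₀ ℚ) :
    ∀ᵐ x ∂m, HO (cmb e c) x = cmb (fun i => HO (e i) x) c := fsum_ho hC hB hlin he _ _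

end stat

section flow

variable {M : Type u} [MetricSpace M] [MeasurableSpace M] {m : Measure M}
variable {E : Type v} [NormedAddCommGroup E] [InnerProductSpace ℝ E]
  {Gr : (M →ₘ[m] ℝ) → M → E} {HO : (M →ₘ[m] ℝ) → M → E →L[ℝ] E} {e : ℕ → M →ₘ[m] ℝ}
  {p : M} {s₀ C₀ : ℝ} {Y : ℝ → M → M}

/-- at every time null sets are avoided -/
theorem Flow.ae_t (h : Flow (m := m) Gr HO p s₀ C₀ Y) {P : M → Prop} (hP : ∀ᵐ x ∂m, P x) {t : ℝ}
    (ht : t ∈ Ioc (0 : ℝ) 1) : ∀ᵐ x ∂m, P (Y t x) := by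
  obtain ⟨A, hA⟩ := h.comp t ht
  have hm : Measurable (Y t) := h.meas.comp measurable_prodMk_left
  have h1 : ∀ᵐ y ∂(m.map (Y t)), P y := by
    refine (Measure.absolutelyContinuous_of_le (hA t ⟨le_rfl, ht.2⟩)).ae_le ?_
    exact Measure.ae_smul_measure hP A
  exact ae_of_ae_map hm.aemeasurable h1

theorem Flow.vel_norm_t (h : Flow (m := m) Gr HO p s₀ C₀ Y) {t : ℝ}
    (ht : t ∈ Ioc (0 : ℝ) 1) : ∀ᵐ x ∂m, ‖vel Gr p s₀ C₀ Y t x‖ = spd p s₀ C₀ x := by
  filter_upwards [Flow.ae_t h h.unit ht, h.rad] with x h1 h2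
  unfold vel
  rw [norm_smul, Real.norm_eq_abs, abs_of_nonneg (spd_nonneg p h.hs₀ x)]
  by_cases hx : dist p x ^ 2 < 2 * C₀ * (1 + s₀)
  · have h3 := h2 hx t ht
    have hs := h.hs₀
    have h4 : (t + s₀) / (1 + s₀) ≤ 1 := by
      rw [div_le_one (by linarith)]
      linarith [ht.2]
    have h5 : 0 ≤ (t + s₀) / (1 + s₀) := by have := ht.1; positivity
    have h6 : (t + s₀) / (1 + s₀) * dist p x ≤ dist p x :=
      mul_le_of_le_one_left dist_nonneg h4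
    have h7 : ((t + s₀) / (1 + s₀) * dist p x) ^ 2 ≤ dist p x ^ 2 :=
      pow_le_pow_left₀ (by positivity) h6 2
    rw [h1 (by rw [h3]; linarith), mul_one]
  · unfold spd
    rw [if_neg hx, zero_mul]

theorem spd_meas [BorelSpace M] (p : M) (s₀ C₀ : ℝ) : Measurable (spd p s₀ C₀) := by
  unfold spd
  have h1 : Measurable fun x : M => dist p x := (continuous_const.dist continuous_id).measurable
  refine Measurable.ite ?_ (h1.div_const _) measurable_const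
  exact measurableSet_lt (h1.pow_const 2) measurable_const

variable [BorelSpace M]

theorem Flow.vel_meas (h : Flow (m := m) Gr HO p s₀ C₀ Y)
    (hfin : ∀ (x : M) (r : ℝ), m (Metric.ball x r) < ∞)
    (hGm : ∀ f ∈ (sob m).W, StronglyMeasurable (Gr f)) :
    StronglyMeasurable fun q : ℝ × M => vel Gr p s₀ C₀ Y q.1 q.2 := by
  unfold vel rdir
  refine StronglyMeasurable.smul ?_ ?_
  · exact ((spd_meas p s₀ C₀).comp measurable_snd).stronglyMeasurable
  · exact (hGm _ (dtr_mem hfin p _)).comp_measurable h.meas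

theorem Flow.qmp [SFinite m] (h : Flow (m := m) Gr HO p s₀ C₀ Y) :
    Measure.QuasiMeasurePreserving (fun q : ℝ × M => Y q.1 q.2)
      ((volume.restrict (Ioo (0 : ℝ) 1)).prod m) m := by
  refine ⟨h.meas, Measure.AbsolutelyContinuous.mk fun N hN hN0 => ?_⟩
  rw [Measure.map_apply h.meas hN, Measure.prod_apply (h.meas hN),
    lintegral_eq_zero_iff' (measurable_measure_prodMk_left (h.meas hN)).aemeasurable]
  filter_upwards [ae_restrict_mem measurableSet_Ioo] with t ht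
  have h1 := Flow.ae_t h (P := fun y => y ∉ N) (measure_eq_zero_iff_ae_notMem.1 hN0)
    (t := t) ⟨ht.1, ht.2.le⟩
  exact measure_eq_zero_iff_ae_notMem.2 h1

theorem Flow.ho_meas [SFinite m] (h : Flow (m := m) Gr HO p s₀ C₀ Y)
    (hfin : ∀ (x : M) (r : ℝ), m (Metric.ball x r) < ∞)
    (hGm : ∀ f ∈ (sob m).W, StronglyMeasurable (Gr f)) {b : M →ₘ[m] ℝ}
    (hb : ∀ w : E, AEStronglyMeasurable (fun x => HO b x w) m) :
    AEStronglyMeasurable (fun q : ℝ × M =>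
      ⟪HO b (Y q.1 q.2) (vel Gr p s₀ C₀ Y q.1 q.2), vel Gr p s₀ C₀ Y q.1 q.2⟫_ℝ)
      ((volume.restrict (Ioo (0 : ℝ) 1)).prod m) := by
  have h1 := Flow.vel_meas h hfin hGm
  have h2 := clm_apply_aemeas (A := fun q : ℝ × M => HO b (Y q.1 q.2))
      (fun w => (hb w).comp_quasiMeasurePreserving (Flow.qmp h)) h1
  exact h2.inner h1.aestronglyMeasurable

/-- the continuous version of `⟨∇b,v⟩` at almost every time -/
theorem Flow.pw_ae [SFinite m] (h : Flow (m := m) Gr HO p s₀ C₀ Y)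
    (hfin : ∀ (x : M) (r : ℝ), m (Metric.ball x r) < ∞)
    (hGm : ∀ f ∈ (sob m).W, StronglyMeasurable (Gr f)) {b : M →ₘ[m] ℝ} (hb : b ∈ (sob m).TestI)
    (hbW : b ∈ (sob m).W) (hbm : ∀ w : E, AEStronglyMeasurable (fun x => HO b x w) m) :
    ∀ᵐ t ∂(volume.restrict (Ioo (0 : ℝ) 1)), ∀ᵐ x ∂m,
      ⟪Gr b (Y t x), vel Gr p s₀ C₀ Y t x⟫_ℝ = pw Gr HO p s₀ C₀ Y b t x := by
  have hG0 := Flow.ho_meas h hfin hGm hbm
  set G : ℝ → M → ℝ := fun r x => hG0.mk _ (r, x) with hG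
  have hGm' : StronglyMeasurable fun q : ℝ × M => G q.1 q.2 := hG0.stronglyMeasurable_mk
  have hGe : ∀ᵐ x ∂m, ∀ᵐ r ∂(volume.restrict (Ioo (0 : ℝ) 1)),
      ⟪HO b (Y r x) (vel Gr p s₀ C₀ Y r x), vel Gr p s₀ C₀ Y r x⟫_ℝ = G r x := by
    exact Measure.ae_ae_of_ae_prod ((Measure.measurePreserving_swap (μ := m)
      (ν := volume.restrict (Ioo (0 : ℝ) 1))).quasiMeasurePreserving.ae hG0.ae_eq_mk)
  have hv := Flow.vel_meas h hfin hGm
  set F : ℝ → M → ℝ := fun t x => ⟪Gr b (Y t x), vel Gr p s₀ C₀ Y t x⟫_ℝ with hF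
  have hFm : StronglyMeasurable fun q : ℝ × M => F q.1 q.2 :=
    ((hGm b hbW).comp_measurable h.meas).inner hv
  -- a measurable version of `pw`
  set P : ℝ → M → ℝ := fun t x => ⟪Gr b x, vel Gr p s₀ C₀ Y 1 x⟫_ℝ - ∫ r in Ioc t 1, G r x with hP
  have hPm : StronglyMeasurable fun q : ℝ × M => P q.1 q.2 := by
    refine StronglyMeasurable.sub ?_ ?_
    · exact ((hGm b hbW).comp_measurable measurable_snd).inner
        (hv.comp_measurable (measurable_const.prodMk measurable_snd))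
    · have h1 : (fun q : ℝ × M => ∫ r in Ioc q.1 1, G r q.2) = fun q : ℝ × M =>
          ∫ r, ({z : (ℝ × M) × ℝ | z.1.1 < z.2 ∧ z.2 ≤ 1}.indicator
            (fun z : (ℝ × M) × ℝ => G z.2 z.1.2)) (q, r) := by
        funext q
        rw [← integral_indicator measurableSet_Ioc]
        refine integral_congr_ae (Eventually.of_forall fun r => ?_)
        by_cases hr : r ∈ Ioc q.1 1
        · rw [indicator_of_mem hr]
          change G r q.2 = Set.indicator {z : (ℝ × M) × ℝ | z.1.1 < z.2 ∧ z.2 ≤ 1}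
            (fun z => G z.2 z.1.2) (q, r)
          rw [indicator_of_mem (show (q, r) ∈ {z : (ℝ × M) × ℝ | z.1.1 < z.2 ∧ z.2 ≤ 1} from hr)]
        · rw [indicator_of_notMem hr]
          change 0 = Set.indicator {z : (ℝ × M) × ℝ | z.1.1 < z.2 ∧ z.2 ≤ 1}
            (fun z => G z.2 z.1.2) (q, r)
          rw [indicator_of_notMem
            (show (q, r) ∉ {z : (ℝ × M) × ℝ | z.1.1 < z.2 ∧ z.2 ≤ 1} from hr)]
      rw [h1]
      refine StronglyMeasurable.integral_prod_right' ?_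
      refine StronglyMeasurable.indicator (hGm'.comp_measurable
        (measurable_snd.prodMk (measurable_snd.comp measurable_fst))) ?_
      exact (measurableSet_lt (measurable_fst.comp measurable_fst) measurable_snd).inter
        (measurableSet_le measurable_snd measurable_const)
  have hPe : ∀ᵐ x ∂m, ∀ t ∈ Ioo (0 : ℝ) 1, P t x = pw Gr HO p s₀ C₀ Y b t x := by
    filter_upwards [hGe] with x hx t ht
    rw [hP]
    simp only
    unfold pw
    rw [intervalIntegral.integral_of_le ht.2.le, integral_Ioc_eq_integral_Ioo,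
      integral_Ioc_eq_integral_Ioo]
    congr 1
    refine integral_congr_ae ?_
    filter_upwards [ae_restrict_of_ae_restrict_of_subset (Ioo_subset_Ioo_left ht.1.le) hx]
      with r hr using hr.symm
  have h1 : ∀ᵐ x ∂m, ∀ᵐ t ∂(volume.restrict (Ioo (0 : ℝ) 1)), F t x = P t x := by
    filter_upwards [h.ac2 b hb, hPe] with x hx hx'
    filter_upwards [hx.2, ae_restrict_mem measurableSet_Ioo] with t ht ht'
    rw [hx' t ht', hF]
    exact ht
  have h2 : MeasurableSet {q : M × ℝ | F q.2 q.1 = P q.2 q.1} :=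
    measurableSet_eq_fun (hFm.measurable.comp measurable_swap) (hPm.measurable.comp measurable_swap)
  have h3 := (Measure.ae_ae_comm (p := fun x t => F t x = P t x) h2).1 h1
  filter_upwards [h3, ae_restrict_mem measurableSet_Ioo] with t ht ht'
  filter_upwards [ht, hPe] with x hx hx'
  rw [← hx' t ht']
  exact hx

/-- the precise version of `|∇h - v|²(Y_t x)`, `h = ∑ cᵢ eᵢ` -/
noncomputable def QQ (Gr : (M →ₘ[m] ℝ) → M → E) (HO : (M →ₘ[m] ℝ) → M → E →L[ℝ] E)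
    (e : ℕ → M →ₘ[m] ℝ) (Gt : ℕ → ℕ → M → ℝ) (p : M) (s₀ C₀ : ℝ) (Y : ℝ → M → M) (c : ℕ →₀ ℚ)
    (t : ℝ) (x : M) : ℝ :=
  cmb (fun i => cmb (fun j => Gt i j (Y t x)) c) c
    - 2 * cmb (fun i => pw Gr HO p s₀ C₀ Y (e i) t x) c + spd p s₀ C₀ x ^ 2

/-- `√QQ` is absolutely continuous along almost every curve -/
theorem Flow.QQ_inc [SFinite m] {κ : ℝ} (h : Flow (m := m) Gr HO p s₀ C₀ Y)
    (hS : Stat (sob m) Gr HO e) (hC : IsGamma (sob m)) (hB : (sob m).BEi κ)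
    {Gt : ℕ → ℕ → M → ℝ} (hGt : ∀ i j, Precise Gr HO ((sob m).Γ (e i) (e j)) (Gt i j))
    {a b : ℝ} (ha : 0 < a) (hab : a ≤ b) (hb : b < 1) (c : ℕ →₀ ℚ) {L : M → ℝ}
    (hL : Measurable L) (hL0 : ∀ x, 0 ≤ L x) (hLb : ∀ᵐ x ∂m, ‖HO (cmb e c) x‖ ≤ L x)
    (hL2 : MemLp L 2 m) :
    ∀ᵐ x ∂m, (∀ t ∈ Icc a b, 0 ≤ QQ Gr HO e Gt p s₀ C₀ Y c t x) ∧
      ∀ s ∈ Icc a b, ∀ t ∈ Icc a b,
        |√(QQ Gr HO e Gt p s₀ C₀ Y c t x) - √(QQ Gr HO e Gt p s₀ C₀ Y c s x)| ≤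
          spd p s₀ C₀ x * |∫ r in s..t, L (Y r x)| := by
  have hT : ∀ i, e i ∈ (sob m).Test := fun i => (hS.testI i).1
  have hW : ∀ i j, (sob m).Γ (e i) (e j) ∈ (sob m).W := fun i j => (hC.Γ_mem hB (hT i) (hT j)).1
  -- integrability of `L` along the curves
  obtain ⟨A, hA⟩ := Flow.exists_comp h (s := a) ⟨ha, by linarith⟩
  have hI1 : ∀ᵐ x ∂m, ∫⁻ r in Icc a b, ‖L (Y r x)‖ₑ ≠ ∞ := by
    have h1 := hA.sq_le (g := fun x => ‖L x‖ₑ) hL.enorm (c := a) (d := b)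
      (Icc_subset_Icc_right hb.le)
    have h2 : ∫⁻ x, (∫⁻ t in Icc a b, ‖L (Y t x)‖ₑ) ^ 2 ∂m ≠ ∞ := by
      refine ne_top_of_le_ne_top ?_ h1
      refine ENNReal.mul_ne_top (ENNReal.mul_ne_top (ENNReal.pow_ne_top ENNReal.ofReal_ne_top)
        ENNReal.coe_ne_top) ?_
      rw [lintegral_enorm_sq hL2]
      exact ENNReal.ofReal_ne_top
    have hm : Measurable fun x => ∫⁻ t in Icc a b, ‖L (Y t x)‖ₑ :=
      Measurable.lintegral_prod_left' (f := fun q : ℝ × M => ‖L (Y q.1 q.2)‖ₑ)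
        (hL.enorm.comp h.meas)
    filter_upwards [ae_lt_top (hm.pow_const 2) h2] with x hx
    intro h'
    rw [h'] at hx
    simp at hx
  -- static identities
  have hst : ∀ᵐ y ∂m, (∀ i j, Gt i j y = ⟪Gr (e i) y, Gr (e j) y⟫_ℝ) ∧
      (∀ i j, Gr ((sob m).Γ (e i) (e j)) y = HO (e i) y (Gr (e j) y) + HO (e j) y (Gr (e i) y)) ∧
      HO (cmb e c) y = cmb (fun i => HO (e i) y) c ∧ ‖HO (cmb e c) y‖ ≤ L y := by
    filter_upwards [ae_all_iff.2 fun i => ae_all_iff.2 fun j => (hGt i j).2.1,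
      ae_all_iff.2 fun i => ae_all_iff.2 fun j =>
        hS.grad.inner (e i) (hC.test_A (hT i)).1 (e j) (hC.test_A (hT j)).1,
      ae_all_iff.2 fun i => ae_all_iff.2 fun j => hS.hess.prod (e i) (hT i) (e j) (hT j),
      cmb_ho hC hB hS.hess.lin hS.testI c, hLb] with y y1 y2 y3 y4 y5
    exact ⟨fun i j => by rw [y1, y2], y3, y4, y5⟩
  filter_upwards [hI1, Flow.ae_ae h hst, Flow.vel_norm h,
    ae_all_iff.2 fun i => ae_all_iff.2 fun j => (hGt i j).2.2 p s₀ C₀ Y h,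
    ae_all_iff.2 fun i => ae_all_iff.2 fun j => h.ac1 _ (hW i j),
    ae_all_iff.2 fun i => h.ac2 _ (hS.testI i)] with x x1 x2 x3 x4 x5 x6
  -- abbreviations
  set Aij : ℕ → ℕ → ℝ → ℝ := fun i j r =>
    ⟪Gr ((sob m).Γ (e i) (e j)) (Y r x), vel Gr p s₀ C₀ Y r x⟫_ℝ with hAij
  set Bi : ℕ → ℝ → ℝ := fun i r =>
    ⟪HO (e i) (Y r x) (vel Gr p s₀ C₀ Y r x), vel Gr p s₀ C₀ Y r x⟫_ℝ with hBi
  set q : ℝ → ℝ := fun r => cmb (fun i => cmb (fun j => Aij i j r) c) c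
    - 2 * cmb (fun i => Bi i r) c with hq
  have hint : ∀ {f : ℝ → ℝ}, (∀ s ∈ Ioo (0 : ℝ) 1, IntervalIntegrable f volume s 1) →
      ∀ t ∈ Ioc (0 : ℝ) 1, IntervalIntegrable f volume t 1 := by
    intro f hf t ht
    rcases eq_or_lt_of_le ht.2 with h' | h'
    · rw [h']
    · exact hf t ⟨ht.1, h'⟩
  have hAi : ∀ t ∈ Ioc (0 : ℝ) 1, ∀ i j, IntervalIntegrable (Aij i j) volume t 1 :=
    fun t ht i j => hint (x5 i j).1 t ht
  have hBi' : ∀ t ∈ Ioc (0 : ℝ) 1, ∀ i, IntervalIntegrable (Bi i) volume t 1 :=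
    fun t ht i => hint (x6 i).1 t ht
  have hqi : ∀ t ∈ Ioc (0 : ℝ) 1, IntervalIntegrable q volume t 1 := fun t ht =>
    (cmb_intervalIntegrable (fun i => cmb_intervalIntegrable (fun j => hAi t ht i j) c) c).sub
      ((cmb_intervalIntegrable (fun i => hBi' t ht i) c).const_mul 2)
  set Q : ℝ → ℝ := fun t => QQ Gr HO e Gt p s₀ C₀ Y c t x with hQ
  set K0 : ℝ := cmb (fun i => cmb (fun j => ((sob m).Γ (e i) (e j) : M →ₘ[m] ℝ) x) c) c
    - 2 * cmb (fun i => ⟪Gr (e i) x, vel Gr p s₀ C₀ Y 1 x⟫_ℝ) c + spd p s₀ C₀ x ^ 2 with hK0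
  have hQt : ∀ t ∈ Ioc (0 : ℝ) 1, Q t = K0 - ∫ r in t..1, q r := by
    intro t ht
    have e1 : cmb (fun i => cmb (fun j => Gt i j (Y t x)) c) c =
        cmb (fun i => cmb (fun j => ((sob m).Γ (e i) (e j) : M →ₘ[m] ℝ) x) c) c -
          ∫ r in t..1, cmb (fun i => cmb (fun j => Aij i j r) c) c :=
      cmb_prim (fun i => cmb_intervalIntegrable (fun j => hAi t ht i j) c)
        (fun i => cmb_prim (fun j => hAi t ht i j) (fun j => x4 i j t ht) c) c
    have e2 : cmb (fun i => pw Gr HO p s₀ C₀ Y (e i) t x) c =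
        cmb (fun i => ⟪Gr (e i) x, vel Gr p s₀ C₀ Y 1 x⟫_ℝ) c - ∫ r in t..1, cmb (fun i => Bi i r) c :=
      cmb_prim (fun i => hBi' t ht i) (fun i => rfl) c
    have e3 : ∫ r in t..1, q r = (∫ r in t..1, cmb (fun i => cmb (fun j => Aij i j r) c) c) -
        2 * ∫ r in t..1, cmb (fun i => Bi i r) c := by
      rw [hq, intervalIntegral.integral_sub
        (cmb_intervalIntegrable (fun i => cmb_intervalIntegrable (fun j => hAi t ht i j) c) c)
        ((cmb_intervalIntegrable (fun i => hBi' t ht i) c).const_mul 2),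
        intervalIntegral.integral_const_mul]
    rw [hQ]
    simp only
    rw [QQ, e1, e2, e3, hK0]
    ring
  have hcQ : ContinuousOn Q (Ioc 0 1) := by
    refine ContinuousOn.congr ?_ hQt
    exact continuousOn_const.sub (contOn_prim fun s hs => hqi s ⟨hs.1, hs.2.le⟩)
  -- the identities at a.e. time
  have hae : ∀ᵐ r ∂(volume.restrict (Ioo (0 : ℝ) 1)),
      Q r = ‖cmb (fun i => Gr (e i) (Y r x)) c - vel Gr p s₀ C₀ Y r x‖ ^ 2 ∧
      q r = 2 * ⟪HO (cmb e c) (Y r x) (cmb (fun i => Gr (e i) (Y r x)) c - vel Gr p s₀ C₀ Y r x),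
        vel Gr p s₀ C₀ Y r x⟫_ℝ ∧ ‖vel Gr p s₀ C₀ Y r x‖ = spd p s₀ C₀ x ∧
      ‖HO (cmb e c) (Y r x)‖ ≤ L (Y r x) := by
    filter_upwards [x2, x3, ae_all_iff.2 fun i => (x6 i).2] with r r1 r2 r3
    obtain ⟨r4, r5, r6, r7⟩ := r1
    refine ⟨?_, ?_, r2, r7⟩
    · rw [← Q_eq (fun i => Gr (e i) (Y r x)) c (vel Gr p s₀ C₀ Y r x) r2]
      rw [hQ]
      simp only [QQ]
      have e1 : (fun i => pw Gr HO p s₀ C₀ Y (e i) r x) =
          fun i => ⟪Gr (e i) (Y r x), vel Gr p s₀ C₀ Y r x⟫_ℝ := by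
        funext i
        rw [r3 i]
        rfl
      rw [e1]
      simp only [r4]
    · rw [r6, ← q_eq]
      rw [hq]
      simp only [hAij, hBi, r5]
  have hQ0 : ∀ t ∈ Ioc (0 : ℝ) 1, 0 ≤ Q t := by
    intro t ht
    have h1 : Q t = max (Q t) 0 := by
      refine eq_all (f := Q) (g := fun t => max (Q t) 0) ?_ hcQ (hcQ.sup continuousOn_const) ht
      filter_upwards [hae] with r hr
      rw [max_eq_left]
      rw [hr.1]
      positivity
    rw [h1]
    exact le_max_right _ _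
  have hsub : Icc a b ⊆ Ioo (0 : ℝ) 1 := fun r hr => ⟨lt_of_lt_of_le ha hr.1, lt_of_le_of_lt hr.2 hb⟩
  have hsub' : Icc a b ⊆ Ioc (0 : ℝ) 1 := fun r hr => ⟨(hsub hr).1, (hsub hr).2.le⟩
  have haI : a ∈ Icc a b := ⟨le_rfl, hab⟩
  refine ⟨fun t ht => hQ0 t (hsub' ht), fun s hs t ht => ?_⟩
  have hφi : IntervalIntegrable (fun r => L (Y r x)) volume a b := by
    rw [intervalIntegrable_iff_integrableOn_Icc_of_le hab]
    exact ⟨(hL.comp (h.meas.comp measurable_prodMk_right)).aestronglyMeasurable,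
      lt_top_iff_ne_top.2 x1⟩
  have hqab : IntervalIntegrable q volume a b :=
    (hqi a (hsub' haI)).mono_set (by
      rw [uIcc_of_le hab, uIcc_of_le (by linarith : a ≤ 1)]
      exact Icc_subset_Icc_right hb.le)
  have key := sqrt_inc (e := Q) (e' := q) (φ := fun r => spd p s₀ C₀ x * L (Y r x)) (a := a) (b := b)
    (fun t ht => hQ0 t (hsub' ht)) hqab (hφi.const_mul _)
    (fun t _ => mul_nonneg (spd_nonneg p h.hs₀ x) (hL0 _)) (fun t ht => ?_) ?_ hs ht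
  · rw [intervalIntegral.integral_const_mul, abs_mul, abs_of_nonneg (spd_nonneg p h.hs₀ x)] at key
    exact key
  · rw [hQt t (hsub' ht), hQt a (hsub' haI)]
    have h1 : IntervalIntegrable q volume a t := hqab.mono_set (by
      rw [uIcc_of_le hab, uIcc_of_le ht.1]
      exact Icc_subset_Icc_right ht.2)
    have := intervalIntegral.integral_add_adjacent_intervals h1 (hqi t (hsub' ht))
    linarith
  · rw [← ae_restrict_iff' measurableSet_Icc]
    filter_upwards [ae_restrict_of_ae_restrict_of_subset hsub hae] with r hr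
    obtain ⟨r1, r2, r3, r4⟩ := hr
    have h1 : √(Q r) = ‖cmb (fun i => Gr (e i) (Y r x)) c - vel Gr p s₀ C₀ Y r x‖ := by
      rw [r1, Real.sqrt_sq (norm_nonneg _)]
    rw [r2, h1, abs_mul, abs_two, ← Real.norm_eq_abs]
    have h2 : ‖⟪HO (cmb e c) (Y r x) (cmb (fun i => Gr (e i) (Y r x)) c - vel Gr p s₀ C₀ Y r x),
        vel Gr p s₀ C₀ Y r x⟫_ℝ‖ ≤
        L (Y r x) * ‖cmb (fun i => Gr (e i) (Y r x)) c - vel Gr p s₀ C₀ Y r x‖ *
          spd p s₀ C₀ x := by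
      refine (norm_inner_le_norm _ _).trans ?_
      rw [r3]
      refine mul_le_mul_of_nonneg_right ?_ (spd_nonneg p h.hs₀ x)
      refine ((HO (cmb e c) (Y r x)).le_opNorm _).trans ?_
      exact mul_le_mul_of_nonneg_right r4 (norm_nonneg _)
    calc 2 * _ ≤ 2 * (L (Y r x) * ‖cmb (fun i => Gr (e i) (Y r x)) c - vel Gr p s₀ C₀ Y r x‖ *
          spd p s₀ C₀ x) := by gcongr
      _ = _ := by ring

/-- graph norm of a sum -/
theorem gnorm_add_le {C : Calc m} (hC : IsGamma C) {κ : ℝ} (hB : C.BEi κ) {f g : M →ₘ[m] ℝ}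
    (hf : f ∈ C.TestI) (hg : g ∈ C.TestI) :
    C.nrm2 (f + g) + I (C.lap (f + g) ^ 2) ≤
      2 * (C.nrm2 f + I (C.lap f ^ 2)) + 2 * (C.nrm2 g + I (C.lap g ^ 2)) := by
  have h1 := hC.nrm2_add_le (hC.test_A hf.1).1 (hC.test_A hg.1).1
  rw [hC.lap_add hB hf.1 hg.1]
  have h2 := I_sq_add_le (hC.memLp _ (hC.test_lap_mem hf.1)) (hC.memLp _ (hC.test_lap_mem hg.1))
  linarith

theorem neg_testI {C : Calc m} (hC : IsGamma C) {κ : ℝ} (hB : C.BEi κ) {f : M →ₘ[m] ℝ}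
    (hf : f ∈ C.TestI) : -f ∈ C.TestI := by
  have := hC.testI_smul hB (-1) hf
  rwa [neg_one_smul] at this

theorem gnorm_neg {C : Calc m} (hC : IsGamma C) {κ : ℝ} (hB : C.BEi κ) {f : M →ₘ[m] ℝ}
    (hf : f ∈ C.TestI) : C.nrm2 (-f) + I (C.lap (-f) ^ 2) = C.nrm2 f + I (C.lap f ^ 2) := by
  have h1 := hC.lap_smul hB (-1) hf.1
  rw [neg_one_smul, neg_one_smul] at h1
  rw [hC.nrm2_neg (hC.test_A hf.1).1, h1, neg_sq]

/-- the choice in one window -/
theorem Flow.window [SFinite m] {κ : ℝ} (h : Flow (m := m) Gr HO p s₀ C₀ Y)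
    (hfin : ∀ (x : M) (r : ℝ), m (Metric.ball x r) < ∞)
    (hS : Stat (sob m) Gr HO e) (hC : IsGamma (sob m)) (hB : (sob m).BEi κ)
    {Gt : ℕ → ℕ → M → ℝ} (hGt : ∀ i j, Precise Gr HO ((sob m).Γ (e i) (e j)) (Gt i j))
    {s A : ℝ} (hs : s ∈ Ioo (0 : ℝ) 1)
    (hA : ∀ᵐ t ∂(volume.restrict (Ioo s (1 - s))), ∀ ε > 0,
      ∃ h ∈ (sob m).TestI, (sob m).nrm2 h + I ((sob m).lap h ^ 2) ≤ A ∧
        ∫⁻ x, ENNReal.ofReal (‖Gr h (Y t x) - vel Gr p s₀ C₀ Y t x‖ ^ 2) ∂m ≤ ENNReal.ofReal ε)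
    {c d : ℝ} (hcd : c < d) (hcs : s ≤ c) (hds : d ≤ 1 - s) {ε : ℝ} (hε : 0 < ε) :
    ∃ τ ∈ Icc c d, ∃ k : ℕ →₀ ℚ,
      (sob m).nrm2 (cmb e k) + I ((sob m).lap (cmb e k) ^ 2) ≤ 2 * A + 2 ∧
      (∀ᵐ x ∂m, ENNReal.ofReal (QQ Gr HO e Gt p s₀ C₀ Y k τ x) ≤
        ENNReal.ofReal (‖Gr (cmb e k) (Y τ x) - vel Gr p s₀ C₀ Y τ x‖ ^ 2)) ∧
      ∫⁻ x, ENNReal.ofReal (‖Gr (cmb e k) (Y τ x) - vel Gr p s₀ C₀ Y τ x‖ ^ 2) ∂m ≤
        ENNReal.ofReal ε := by
  have hT : ∀ i, e i ∈ (sob m).Test := fun i => (hS.testI i).1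
  obtain ⟨B, hBc⟩ := h.comp s ⟨hs.1, hs.2.le⟩
  -- a good time
  have hp1 : ∀ᵐ t ∂(volume.restrict (Ioo (0 : ℝ) 1)), ∀ i, ∀ᵐ x ∂m,
      ⟪Gr (e i) (Y t x), vel Gr p s₀ C₀ Y t x⟫_ℝ = pw Gr HO p s₀ C₀ Y (e i) t x :=
    ae_all_iff.2 fun i => Flow.pw_ae h hfin hS.gmeas (hS.testI i) (hC.test_A (hT i)).1
      (hS.hess.meas _ (hT i))
  have hsub1 : Ioo c d ⊆ Ioo (0 : ℝ) 1 := Ioo_subset_Ioo (by linarith [hs.1]) (by linarith [hs.1])
  have hsub2 : Ioo c d ⊆ Ioo s (1 - s) := Ioo_subset_Ioo hcs hds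
  have hne : (volume.restrict (Ioo c d)) ≠ 0 := by
    rw [Ne, Measure.restrict_eq_zero, Real.volume_Ioo]
    simpa using hcd
  have : NeBot (ae (volume.restrict (Ioo c d))) := ae_neBot.2 hne
  obtain ⟨τ, ⟨hτ1, hτ2⟩, hτ3⟩ := (((ae_restrict_of_ae_restrict_of_subset hsub1 hp1).and
    (ae_restrict_of_ae_restrict_of_subset hsub2 hA)).and (ae_restrict_mem measurableSet_Ioo)).exists
  have hτ0 : τ ∈ Ioc (0 : ℝ) 1 := ⟨(hsub1 hτ3).1, (hsub1 hτ3).2.le⟩
  have hm : Measurable (Y τ) := h.meas.comp measurable_prodMk_left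
  obtain ⟨f, hf, hfA, hfε⟩ := hτ2 (ε / 4) (by positivity)
  obtain ⟨k, hk⟩ : ∃ k : ℕ →₀ ℚ, (sob m).nrm2 (f - cmb e k) + I ((sob m).lap (f - cmb e k) ^ 2) <
      min 1 (ε / (4 * (B + 1))) := by
    obtain ⟨i, hi⟩ := hS.dense f hf (min 1 (ε / (4 * (B + 1)))) (by positivity)
    refine ⟨Finsupp.single i 1, ?_⟩
    rwa [cmb_single]
  have hkI := cmb_testI hC hB hS.testI k
  have hdI : f - cmb e k ∈ (sob m).TestI := by
    rw [sub_eq_add_neg]; exact hC.testI_add hB hf (neg_testI hC hB hkI)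
  have hkW := (hC.test_A hkI.1).1
  have hfW := (hC.test_A hf.1).1
  have hdW := (hC.test_A hdI.1).1
  refine ⟨τ, ⟨hτ3.1.le, hτ3.2.le⟩, k, ?_, ?_, ?_⟩
  · have h1 := gnorm_add_le hC hB hf (neg_testI hC hB hdI)
    rw [gnorm_neg hC hB hdI, ← sub_eq_add_neg, sub_sub_cancel] at h1
    have h2 := hk.le.trans (min_le_left _ _)
    linarith
  · have hst : ∀ᵐ y ∂m, (∀ i j, Gt i j y = ⟪Gr (e i) y, Gr (e j) y⟫_ℝ) ∧
        Gr (cmb e k) y = cmb (fun i => Gr (e i) y) k := by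
      filter_upwards [ae_all_iff.2 fun i => ae_all_iff.2 fun j => (hGt i j).2.1,
        ae_all_iff.2 fun i => ae_all_iff.2 fun j =>
          hS.grad.inner (e i) (hC.test_A (hT i)).1 (e j) (hC.test_A (hT j)).1,
        cmb_gr hC hB hS.grad hS.testI k] with y y1 y2 y3
      exact ⟨fun i j => by rw [y1, y2], y3⟩
    filter_upwards [Flow.ae_t h hst hτ0, Flow.vel_norm_t h hτ0, ae_all_iff.2 hτ1] with x x1 x2 x3
    obtain ⟨x4, x5⟩ := x1
    refine le_of_eq ?_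
    rw [x5, ← Q_eq (fun i => Gr (e i) (Y τ x)) k (vel Gr p s₀ C₀ Y τ x) x2]
    simp only [QQ, x4, x3]
  · have h1 : ∀ᵐ x ∂m, ENNReal.ofReal (‖Gr (cmb e k) (Y τ x) - vel Gr p s₀ C₀ Y τ x‖ ^ 2) ≤
        2 * ENNReal.ofReal (‖Gr f (Y τ x) - vel Gr p s₀ C₀ Y τ x‖ ^ 2) +
          2 * ‖Gr (f - cmb e k) (Y τ x)‖ₑ ^ 2 := by
      filter_upwards [Flow.ae_t h (hS.grad.sub hC.toIsDir hfW hkW) hτ0] with x hx
      rw [hx, ← ofReal_norm, ← ENNReal.ofReal_pow (norm_nonneg _),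
        show (2 : ℝ≥0∞) = ENNReal.ofReal 2 by simp, ← ENNReal.ofReal_mul (by norm_num),
        ← ENNReal.ofReal_mul (by norm_num), ← ENNReal.ofReal_add (by positivity) (by positivity)]
      refine ENNReal.ofReal_le_ofReal ?_
      have h2 : Gr (cmb e k) (Y τ x) - vel Gr p s₀ C₀ Y τ x =
          (Gr f (Y τ x) - vel Gr p s₀ C₀ Y τ x) - (Gr f (Y τ x) - Gr (cmb e k) (Y τ x)) := by abel
      rw [h2]
      have h3 := norm_sub_le (Gr f (Y τ x) - vel Gr p s₀ C₀ Y τ x)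
        (Gr f (Y τ x) - Gr (cmb e k) (Y τ x))
      have h4 := pow_le_pow_left₀ (norm_nonneg _) h3 2
      nlinarith [sq_nonneg (‖Gr f (Y τ x) - vel Gr p s₀ C₀ Y τ x‖ -
        ‖Gr f (Y τ x) - Gr (cmb e k) (Y τ x)‖)]
    have hgm : Measurable fun x => ‖Gr (f - cmb e k) x‖ₑ ^ 2 := (hS.gmeas _ hdW).enorm.pow_const 2
    have h5 : ∫⁻ x, ‖Gr (f - cmb e k) (Y τ x)‖ₑ ^ 2 ∂m ≤
        B * ENNReal.ofReal (ε / (4 * (B + 1))) := by
      rw [← lintegral_map hgm hm]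
      refine (lintegral_mono' (hBc τ ⟨hcs.trans hτ3.1.le, hτ0.2⟩) le_rfl).trans ?_
      rw [lintegral_smul_measure, ENNReal.smul_def, smul_eq_mul]
      gcongr
      rw [lintegral_enorm_sq (hS.grad.mem _ hdW), hS.grad.int_norm_sq hdW]
      refine ENNReal.ofReal_le_ofReal ?_
      have h6 := hC.E_le_nrm2 (f - cmb e k)
      have h7 := I_sq_nonneg ((sob m).lap (f - cmb e k))
      have h8 := hk.le.trans (min_le_right _ _)
      linarith
    refine (lintegral_mono_ae h1).trans ?_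
    have hgm2 : Measurable fun x => (2 : ℝ≥0∞) * ‖Gr (f - cmb e k) (Y τ x)‖ₑ ^ 2 :=
      (hgm.comp hm).const_mul _
    rw [lintegral_add_right _ hgm2,
      lintegral_const_mul' _ _ (by norm_num), lintegral_const_mul' _ _ (by norm_num)]
    refine (add_le_add (mul_le_mul_right hfε 2) (mul_le_mul_right h5 2)).trans ?_
    rw [show (2 : ℝ≥0∞) = ENNReal.ofReal 2 by simp, ← ENNReal.ofReal_mul (by norm_num),
      ← ENNReal.ofReal_coe_nnreal, ← ENNReal.ofReal_mul (by positivity),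
      ← ENNReal.ofReal_mul (by norm_num), ← ENNReal.ofReal_add (by positivity) (by positivity)]
    refine ENNReal.ofReal_le_ofReal ?_
    have h9 : (B : ℝ) * (ε / (4 * (B + 1))) ≤ ε / 4 := by
      have hB0 : (0 : ℝ) ≤ B := B.coe_nonneg
      rw [mul_div_assoc', div_le_div_iff₀ (by positivity) (by norm_num)]
      nlinarith
    linarith

/-- measurable bounds of the Hessians -/
theorem hess_bound {C : Calc m} (hC : IsGamma C) (hH : IsHess C Gr HO) : ∃ A : ℝ, 0 ≤ A ∧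
    ∀ b ∈ C.Test, ∃ L : M → ℝ, Measurable L ∧ (∀ x, 0 ≤ L x) ∧ (∀ᵐ x ∂m, ‖HO b x‖ ≤ L x) ∧
      MemLp L 2 m ∧ ∫ x, L x ^ 2 ∂m ≤ A * (C.nrm2 b + I (C.lap b ^ 2)) := by
  obtain ⟨A, hA⟩ := hH.norm
  refine ⟨|A|, abs_nonneg A, fun b hb => ?_⟩
  obtain ⟨L, hL, hLb, hLI⟩ := hA b hb
  have hm := hL.aestronglyMeasurable
  have he : (fun x => |hm.mk L x|) =ᵐ[m] fun x => |L x| := by
    filter_upwards [hm.ae_eq_mk] with x hx
    rw [← hx]
  refine ⟨fun x => |hm.mk L x|, hm.stronglyMeasurable_mk.norm.measurable, fun x => abs_nonneg _, ?_,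
    (memLp_congr_ae he).2 hL.abs, ?_⟩
  · filter_upwards [he, hLb] with x h1 h2
    rw [h1]
    exact h2.trans (le_abs_self _)
  · have h1 : ∫ x, |hm.mk L x| ^ 2 ∂m = ∫ x, L x ^ 2 ∂m := by
      refine integral_congr_ae ?_
      filter_upwards [he] with x hx
      rw [hx, sq_abs]
    rw [h1]
    refine hLI.trans ?_
    have hbW := (hC.test_A hb).1
    have h2 : 0 ≤ I (C.Γ b b) := hC.E_nonneg hbW
    have h3 := I_sq_nonneg (C.lap b)
    have h4 : I (C.Γ b b) ≤ C.nrm2 b := hC.E_le_nrm2 b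
    refine (mul_le_mul_of_nonneg_right (le_abs_self A) (by linarith)).trans ?_
    exact mul_le_mul_of_nonneg_left (by linarith) (abs_nonneg _)

/-- the strong form on `[s,1-s]` -/
theorem Flow.strong_Icc [SFinite m] {κ : ℝ} (h : Flow (m := m) Gr HO p s₀ C₀ Y)
    (hfin : ∀ (x : M) (r : ℝ), m (Metric.ball x r) < ∞)
    (hS : Stat (sob m) Gr HO e) (hC : IsGamma (sob m)) (hB : (sob m).BEi κ)
    {Gt : ℕ → ℕ → M → ℝ} (hGt : ∀ i j, Precise Gr HO ((sob m).Γ (e i) (e j)) (Gt i j))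
    {s : ℝ} (hs : s ∈ Ioo (0 : ℝ) (1 / 2)) :
    ∀ᵐ x ∂m, ∀ t ∈ Icc s (1 - s), ∀ ε > 0, ∃ c : ℕ →₀ ℚ, QQ Gr HO e Gt p s₀ C₀ Y c t x < ε := by
  have hs1 : s ∈ Ioo (0 : ℝ) 1 := ⟨hs.1, by linarith [hs.2]⟩
  have hab : s < 1 - s := by linarith [hs.2]
  obtain ⟨A, hA⟩ := h.ls s hs1
  obtain ⟨A', hcomp⟩ := Flow.exists_comp h (s := s) ⟨hs.1, hs1.2.le⟩
  have hcomp' : Comp m m Y s (1 - s) A' :=
    ⟨hcomp.meas, fun t ht => hcomp.comp t ⟨ht.1, ht.2.trans (by linarith [hs.1])⟩⟩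
  obtain ⟨AH, hAH0, hAH⟩ := hess_bound hC hS.hess
  have hpos : ∀ k : ℕ, (0 : ℝ) < (4 : ℝ)⁻¹ ^ k := fun k => by positivity
  have hwin : ∀ k i, ∃ τ : ℝ, ∃ c : ℕ →₀ ℚ, i < 2 ^ k →
      τ ∈ Icc (pt s (1 - s) k i) (pt s (1 - s) k (i + 1)) ∧
      (sob m).nrm2 (cmb e c) + I ((sob m).lap (cmb e c) ^ 2) ≤ 2 * A + 2 ∧
      (∀ᵐ x ∂m, ENNReal.ofReal (QQ Gr HO e Gt p s₀ C₀ Y c τ x) ≤
        ENNReal.ofReal (‖Gr (cmb e c) (Y τ x) - vel Gr p s₀ C₀ Y τ x‖ ^ 2)) ∧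
      ∫⁻ x, ENNReal.ofReal (‖Gr (cmb e c) (Y τ x) - vel Gr p s₀ C₀ Y τ x‖ ^ 2) ∂m ≤
        ENNReal.ofReal ((4 : ℝ)⁻¹ ^ k) := by
    intro k i
    by_cases hi : i < 2 ^ k
    · have hlt : pt s (1 - s) k i < pt s (1 - s) k (i + 1) := by
        have h1 := pt_sub s (1 - s) k i
        have h2 : 0 < (1 - s - s) / 2 ^ k := by
          apply div_pos (by linarith) (by positivity)
        linarith
      obtain ⟨τ, h1, c, h2⟩ := Flow.window h hfin hS hC hB hGt hs1 hA hlt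
        (pt_mem hab.le hi.le).1 (pt_mem hab.le (Nat.succ_le_of_lt hi)).2 (hpos k)
      exact ⟨τ, c, fun _ => ⟨h1, h2⟩⟩
    · exact ⟨0, 0, fun h' => absurd h' hi⟩
  choose τ c hwin using hwin
  have hkT : ∀ k i, cmb e (c k i) ∈ (sob m).TestI := fun k i => cmb_testI hC hB hS.testI _
  choose L hLm hL0 hLb hL2 hLI using fun k i => hAH (cmb e (c k i)) (hkT k i).1
  have key := hcomp'.strong' hab (l := spd p s₀ C₀) (H := L) hLm
    (K := ENNReal.ofReal (AH * (2 * A + 2))) ENNReal.ofReal_ne_top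
    (fun k i hi => by
      rw [lintegral_enorm_sq (hL2 k i)]
      refine ENNReal.ofReal_le_ofReal ?_
      have h1 : ∫ x, ‖L k i x‖ ^ 2 ∂m = ∫ x, L k i x ^ 2 ∂m := by
        simp only [Real.norm_eq_abs, sq_abs]
      rw [h1]
      refine (hLI k i).trans ?_
      exact mul_le_mul_of_nonneg_left (hwin k i hi).2.1 hAH0)
    (τ := τ) (fun k i hi => (hwin k i hi).1)
    (e := fun k i t x => QQ Gr HO e Gt p s₀ C₀ Y (c k i) t x)
    (fun k i hi => (Flow.QQ_inc h hS hC hB hGt hs.1 hab.le (by linarith [hs.1]) (c k i)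
      (hLm k i) (hL0 k i) (hLb k i) (hL2 k i)).mono fun x hx => hx.1)
    (fun k i hi => (Flow.QQ_inc h hS hC hB hGt hs.1 hab.le (by linarith [hs.1]) (c k i)
      (hLm k i) (hL0 k i) (hLb k i) (hL2 k i)).mono fun x hx => hx.2)
    (g := fun k i x => ENNReal.ofReal
      (‖Gr (cmb e (c k i)) (Y (τ k i) x) - vel Gr p s₀ C₀ Y (τ k i) x‖ ^ 2))
    (fun k i => by
      have hm : Measurable (Y (τ k i)) := h.meas.comp measurable_prodMk_left
      have h1 : StronglyMeasurable fun x => Gr (cmb e (c k i)) (Y (τ k i) x) :=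
        (hS.gmeas _ (hC.test_A (hkT k i).1).1).comp_measurable hm
      have h2 : StronglyMeasurable fun x => vel Gr p s₀ C₀ Y (τ k i) x :=
        (Flow.vel_meas h hfin hS.gmeas).comp_measurable measurable_prodMk_left
      exact (((h1.sub h2).norm.measurable.pow_const 2).ennreal_ofReal).aemeasurable)
    (fun k i hi => (hwin k i hi).2.2.1)
    (fun k i hi => by
      refine (hwin k i hi).2.2.2.trans (le_of_eq ?_)
      rw [ENNReal.ofReal_pow (by norm_num), ENNReal.ofReal_inv_of_pos (by norm_num)]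
      simp)
  filter_upwards [key] with x hx t ht ε hε
  obtain ⟨k, i, _, hi⟩ := hx t ht ε hε
  exact ⟨c k i, hi⟩

/-- **E2** -/
theorem blk_E2 : Blk_E2.{u} := by
  intro M _ _ _ _ m E _ _ _ Gr HO e Gt K N hstd hS hGt p s₀ C₀ Y hF
  have hC := std_isGamma hstd
  have hB := hC.bei hstd.hN hstd.rcd.bochner
  have : SigmaFinite m := sigmaFinite_of_ball hstd.hfin
  have h1 : ∀ n : ℕ, ∀ᵐ x ∂m, ∀ t ∈ Icc (1 / ((n : ℝ) + 3)) (1 - 1 / ((n : ℝ) + 3)), ∀ ε > 0,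
      ∃ c : ℕ →₀ ℚ, QQ Gr HO e Gt p s₀ C₀ Y c t x < ε := fun n =>
    Flow.strong_Icc hF hstd.hfin hS hC hB hGt ⟨by positivity, by
      rw [div_lt_div_iff₀ (by positivity) (by norm_num)]
      have : (0 : ℝ) ≤ n := n.cast_nonneg
      linarith⟩
  filter_upwards [ae_all_iff.2 h1] with x hx t ht ε hε
  obtain ⟨n, hn⟩ := exists_nat_one_div_lt (lt_min ht.1 (by linarith [ht.2] : 0 < 1 - t))
  have h2 : 1 / ((n : ℝ) + 3) ≤ 1 / ((n : ℝ) + 1) :=
    one_div_le_one_div_of_le (by positivity) (by linarith)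
  have h3 := hn.le.trans (min_le_left _ _)
  have h4 := hn.le.trans (min_le_right _ _)
  exact hx n t ⟨by linarith, by linarith⟩ ε hε

end flow

end Vale.Agent.P233.H561
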