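import Vale.Agent.P233.MathlibUsed2

/-!
# P233, row E12, part 1: precise representatives along almost every curve

`X t y`, `t ∈ [a,b]`, `y ∈ Y`, is a family of random curves in `M` with bounded compression:
`(X t)_# μ ≤ C m`.
-/

open MeasureTheory Filter Topology Set
open scoped ENNReal NNReal

namespace Vale.Agent.P233.H561

variable {Y M : Type*} [MeasurableSpace Y] [MeasurableSpace M] {μ : Measure Y} {m : Measure M}

/-- random curves `X t y`, `t ∈ [a,b]`, with compression `≤ C`. -/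
structure Comp (μ : Measure Y) (m : Measure M) (X : ℝ → Y → M) (a b : ℝ) (C : ℝ≥0) : Prop where
  meas : Measurable (Function.uncurry X)
  comp : ∀ t ∈ Icc a b, μ.map (X t) ≤ C • m

variable {X : ℝ → Y → M} {a b : ℝ} {C : ℝ≥0}

theorem Comp.meas_t (h : Comp μ m X a b C) (t : ℝ) : Measurable (X t) :=
  h.meas.comp measurable_prodMk_left

theorem Comp.restrict (h : Comp μ m X a b C) (B : Set Y) : Comp (μ.restrict B) m X a b C :=
  ⟨h.meas, fun t ht => (Measure.map_mono Measure.restrict_le_self (h.meas_t t)).trans (h.comp t ht)⟩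

theorem Comp.mono (h : Comp μ m X a b C) {a' b' : ℝ} (h' : Icc a' b' ⊆ Icc a b) :
    Comp μ m X a' b' C :=
  ⟨h.meas, fun t ht => h.comp t (h' ht)⟩

/-- integrals along the curves -/
theorem Comp.lintegral_le (h : Comp μ m X a b C) {t : ℝ} (ht : t ∈ Icc a b) {g : M → ℝ≥0∞}
    (hg : Measurable g) : ∫⁻ y, g (X t y) ∂μ ≤ C * ∫⁻ x, g x ∂m := by
  rw [← lintegral_map hg (h.meas_t t)]
  refine (lintegral_mono' (h.comp t ht) le_rfl).trans ?_
  rw [lintegral_smul_measure]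
  rfl

theorem Comp.lintegral_lintegral_le [SFinite μ] (h : Comp μ m X a b C) {g : M → ℝ≥0∞}
    (hg : Measurable g) {c d : ℝ} (hcd : Icc c d ⊆ Icc a b) :
    ∫⁻ y, (∫⁻ t in Icc c d, g (X t y)) ∂μ ≤ ENNReal.ofReal (d - c) * (C * ∫⁻ x, g x ∂m) := by
  rw [lintegral_lintegral_swap]
  · refine (setLIntegral_mono measurable_const fun t ht => h.lintegral_le (hcd ht) hg).trans ?_
    rw [setLIntegral_const, Real.volume_Icc, mul_comm]
  · exact ((hg.comp h.meas).comp measurable_swap).aemeasurable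

/-- Cauchy-Schwarz on a set of finite measure -/
theorem lintegral_sq_le {α : Type*} [MeasurableSpace α] (ν : Measure α) {g : α → ℝ≥0∞}
    (hg : AEMeasurable g ν) : (∫⁻ x, g x ∂ν) ^ 2 ≤ ν univ * ∫⁻ x, g x ^ 2 ∂ν := by
  have h := ENNReal.lintegral_mul_le_Lp_mul_Lq ν Real.HolderConjugate.two_two hg
    (aemeasurable_const (b := (1 : ℝ≥0∞)))
  simp only [Pi.mul_apply, mul_one, ENNReal.one_rpow, lintegral_const, one_mul] at h
  calc (∫⁻ x, g x ∂ν) ^ 2 ≤ ((∫⁻ a, g a ^ (2 : ℝ) ∂ν) ^ (1 / (2 : ℝ)) *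
        ν univ ^ (1 / (2 : ℝ))) ^ 2 := pow_le_pow_left' h 2
    _ = ν univ * ∫⁻ x, g x ^ 2 ∂ν := by
        rw [mul_pow, mul_comm, ← ENNReal.rpow_natCast, ← ENNReal.rpow_natCast, ← ENNReal.rpow_mul,
          ← ENNReal.rpow_mul]
        norm_num


/-- second moments along the curves -/
theorem Comp.sq_le [SFinite μ] (h : Comp μ m X a b C) {g : M → ℝ≥0∞} (hg : Measurable g)
    {c d : ℝ} (hcd : Icc c d ⊆ Icc a b) :
    ∫⁻ y, (∫⁻ t in Icc c d, g (X t y)) ^ 2 ∂μ ≤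
      ENNReal.ofReal (d - c) ^ 2 * C * ∫⁻ x, g x ^ 2 ∂m := by
  have h1 : ∀ y, (∫⁻ t in Icc c d, g (X t y)) ^ 2 ≤
      ENNReal.ofReal (d - c) * ∫⁻ t in Icc c d, (g (X t y)) ^ 2 := fun y => by
    have := lintegral_sq_le (volume.restrict (Icc c d)) (g := fun t => g (X t y))
      (hg.comp (h.meas.comp measurable_prodMk_right)).aemeasurable
    rwa [Measure.restrict_apply_univ, Real.volume_Icc] at this
  have hm : Measurable fun y => ∫⁻ t in Icc c d, (g (X t y)) ^ 2 :=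
    Measurable.lintegral_prod_left' (f := fun p : ℝ × Y => (g (X p.1 p.2)) ^ 2)
      ((hg.comp h.meas).pow_const 2)
  calc ∫⁻ y, (∫⁻ t in Icc c d, g (X t y)) ^ 2 ∂μ
      ≤ ∫⁻ y, (ENNReal.ofReal (d - c) * ∫⁻ t in Icc c d, (g (X t y)) ^ 2) ∂μ := lintegral_mono h1
    _ = ENNReal.ofReal (d - c) * ∫⁻ y, (∫⁻ t in Icc c d, (g (X t y)) ^ 2) ∂μ :=
        lintegral_const_mul _ hm
    _ ≤ ENNReal.ofReal (d - c) * (ENNReal.ofReal (d - c) * (C * ∫⁻ x, g x ^ 2 ∂m)) :=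
        mul_le_mul_right (h.lintegral_lintegral_le (hg.pow_const 2) hcd) _
    _ = _ := by ring

theorem le_two_pow (A : ℝ≥0∞) (k : ℕ) : A ≤ 2⁻¹ ^ k + 2 ^ k * A ^ 2 := by
  by_cases hA : A ≤ 2⁻¹ ^ k
  · exact hA.trans le_self_add
  · rw [not_le] at hA
    refine le_trans ?_ le_add_self
    calc A = 2 ^ k * 2⁻¹ ^ k * A := by
          rw [← mul_pow, ENNReal.mul_inv_cancel (by norm_num) (by norm_num), one_pow, one_mul]
      _ ≤ 2 ^ k * A * A := by gcongr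
      _ = _ := by ring

/-- for a fast sequence the integrals along a.e. curve are summable -/
theorem Comp.tsum_curve [SFinite μ] (h : Comp μ m X a b C) {g : ℕ → M → ℝ≥0∞}
    (hg : ∀ k, Measurable (g k)) (hs : ∑' k, 2 ^ k * ∫⁻ x, g k x ^ 2 ∂m ≠ ∞) :
    ∀ᵐ y ∂μ, ∑' k, ∫⁻ t in Icc a b, g k (X t y) ≠ ∞ := by
  have hm : ∀ k, Measurable fun y => ∫⁻ t in Icc a b, g k (X t y) := fun k =>
    Measurable.lintegral_prod_left' (f := fun p : ℝ × Y => g k (X p.1 p.2)) ((hg k).comp h.meas)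
  have hS : ∫⁻ y, ∑' k, 2 ^ k * (∫⁻ t in Icc a b, g k (X t y)) ^ 2 ∂μ ≠ ∞ := by
    rw [lintegral_tsum fun k => (((hm k).pow_const 2).const_mul _).aemeasurable]
    have h1 : ∀ k, ∫⁻ y, 2 ^ k * (∫⁻ t in Icc a b, g k (X t y)) ^ 2 ∂μ ≤
        ENNReal.ofReal (b - a) ^ 2 * C * (2 ^ k * ∫⁻ x, g k x ^ 2 ∂m) := fun k => by
      rw [lintegral_const_mul _ ((hm k).pow_const 2)]
      calc 2 ^ k * ∫⁻ y, (∫⁻ t in Icc a b, g k (X t y)) ^ 2 ∂μ
          ≤ 2 ^ k * (ENNReal.ofReal (b - a) ^ 2 * C * ∫⁻ x, g k x ^ 2 ∂m) := by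
            gcongr
            exact h.sq_le (hg k) le_rfl
        _ = _ := by ring
    refine ne_top_of_le_ne_top ?_ (ENNReal.tsum_le_tsum h1)
    rw [ENNReal.tsum_mul_left]
    exact ENNReal.mul_ne_top (ENNReal.mul_ne_top (ENNReal.pow_ne_top ENNReal.ofReal_ne_top)
      ENNReal.coe_ne_top) hs
  have h2 := ae_lt_top' (AEMeasurable.tsum fun k =>
    (((hm k).pow_const 2).const_mul _).aemeasurable) hS
  filter_upwards [h2] with y hy
  refine ne_top_of_le_ne_top ?_ (ENNReal.tsum_le_tsum fun k => le_two_pow _ k)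
  rw [ENNReal.tsum_add, ENNReal.tsum_geometric]
  refine ENNReal.add_ne_top.2 ⟨?_, hy.ne⟩
  norm_num

theorem enorm_intervalIntegral_le {f : ℝ → ℝ} {s t c d : ℝ} (hs : s ∈ Icc c d) (ht : t ∈ Icc c d) :
    ‖∫ r in s..t, f r‖ₑ ≤ ∫⁻ r in Icc c d, ‖f r‖ₑ := by
  rw [intervalIntegral.intervalIntegral_eq_integral_uIoc, enorm_smul]
  have e2 : ‖(if s ≤ t then (1 : ℝ) else -1)‖ₑ = 1 := by split_ifs <;> simp
  rw [e2, one_mul]
  exact (enorm_integral_le_lintegral_enorm _).trans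
    (lintegral_mono_set (uIoc_subset_uIcc.trans (uIcc_subset_Icc hs ht)))

/-- sup bound along one curve -/
theorem enorm_le_of_inc {d g : ℝ → ℝ} {l : ℝ}
    (h : ∀ s ∈ Icc a b, ∀ t ∈ Icc a b, |d t - d s| ≤ l * |∫ r in s..t, g r|) {t : ℝ}
    (ht : t ∈ Icc a b) :
    ENNReal.ofReal (b - a) * ‖d t‖ₑ ≤ (∫⁻ s in Icc a b, ‖d s‖ₑ) +
      ENNReal.ofReal (b - a) * (ENNReal.ofReal l * ∫⁻ s in Icc a b, ‖g s‖ₑ) := by
  have h1 : ∀ s ∈ Icc a b, ‖d t‖ₑ ≤ ‖d s‖ₑ + ENNReal.ofReal l * ∫⁻ s in Icc a b, ‖g s‖ₑ := by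
    intro s hs
    have e1 : ‖d t - d s‖ₑ ≤ ENNReal.ofReal l * ∫⁻ s in Icc a b, ‖g s‖ₑ := by
      rw [← ofReal_norm, Real.norm_eq_abs]
      refine (ENNReal.ofReal_le_ofReal (h s hs t ht)).trans ?_
      rw [ENNReal.ofReal_mul' (abs_nonneg _)]
      gcongr
      rw [← Real.norm_eq_abs, ofReal_norm]
      rw [intervalIntegral.intervalIntegral_eq_integral_uIoc, enorm_smul]
      have e2 : ‖(if s ≤ t then (1 : ℝ) else -1)‖ₑ = 1 := by split_ifs <;> simp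
      rw [e2, one_mul]
      refine (enorm_integral_le_lintegral_enorm _).trans (lintegral_mono_set ?_)
      exact uIoc_subset_uIcc.trans (uIcc_subset_Icc hs ht)
    calc ‖d t‖ₑ = ‖d s + (d t - d s)‖ₑ := by rw [add_sub_cancel]
      _ ≤ ‖d s‖ₑ + ‖d t - d s‖ₑ := enorm_add_le _ _
      _ ≤ _ := by gcongr
  have h2 := setLIntegral_mono' (μ := volume) measurableSet_Icc h1
  rwa [setLIntegral_const, Real.volume_Icc, mul_comm, lintegral_add_right _ measurable_const,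
    setLIntegral_const, Real.volume_Icc, mul_comm (ENNReal.ofReal l * _)] at h2

/-- **Precise representatives.** A fast sequence of functions whose differences have the gradient
bounds `g k` converges uniformly along almost every curve. -/
theorem Comp.exists_unif [SFinite μ] (h : Comp μ m X a b C) (hab : a < b) {f : ℕ → M → ℝ}
    {g : ℕ → M → ℝ} (hf : ∀ k, Measurable (f k)) (hg : ∀ k, Measurable (g k)) {l : Y → ℝ}
    (hinc : ∀ k, ∀ᵐ y ∂μ, ∀ s ∈ Icc a b, ∀ t ∈ Icc a b,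
      |(f (k + 1) (X t y) - f k (X t y)) - (f (k + 1) (X s y) - f k (X s y))| ≤
        l y * |∫ r in s..t, g k (X r y)|)
    (h1 : ∑' k, 2 ^ k * ∫⁻ x, ‖f (k + 1) x - f k x‖ₑ ^ 2 ∂m ≠ ∞)
    (h2 : ∑' k, 2 ^ k * ∫⁻ x, ‖g k x‖ₑ ^ 2 ∂m ≠ ∞) :
    ∀ᵐ y ∂μ, TendstoUniformlyOn (fun k t => f k (X t y)) (fun t => limUnder atTop fun k => f k (X t y))
      atTop (Icc a b) := by
  have a1 := h.tsum_curve (fun k => ((hf (k + 1)).sub (hf k)).enorm) h1
  have a2 := h.tsum_curve (fun k => (hg k).enorm) h2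
  filter_upwards [a1, a2, ae_all_iff.2 hinc] with y y1 y2 y3
  set c : ℝ≥0∞ := ENNReal.ofReal (b - a) with hc
  have hc0 : c ≠ 0 := by rw [hc]; simpa using hab
  have hct : c ≠ ∞ := ENNReal.ofReal_ne_top
  let u : ℕ → ℝ≥0∞ := fun k => c⁻¹ * (∫⁻ t in Icc a b, ‖f (k + 1) (X t y) - f k (X t y)‖ₑ) +
    ENNReal.ofReal (l y) * ∫⁻ t in Icc a b, ‖g k (X t y)‖ₑ
  have hu : ∑' k, u k ≠ ∞ := by
    simp only [u]
    rw [ENNReal.tsum_add, ENNReal.tsum_mul_left, ENNReal.tsum_mul_left]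
    exact ENNReal.add_ne_top.2 ⟨ENNReal.mul_ne_top (ENNReal.inv_ne_top.2 hc0) y1,
      ENNReal.mul_ne_top ENNReal.ofReal_ne_top y2⟩
  have hd : ∀ t ∈ Icc a b, ∀ k, edist (f k (X t y)) (f (k + 1) (X t y)) ≤ u k := by
    intro t ht k
    have e1 := enorm_le_of_inc (d := fun t => f (k + 1) (X t y) - f k (X t y)) (y3 k) ht
    rw [edist_comm, edist_eq_enorm_sub]
    rw [← hc] at e1
    calc ‖f (k + 1) (X t y) - f k (X t y)‖ₑ
        = c⁻¹ * (c * ‖f (k + 1) (X t y) - f k (X t y)‖ₑ) := by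
          rw [← mul_assoc, ENNReal.inv_mul_cancel hc0 hct, one_mul]
      _ ≤ c⁻¹ * ((∫⁻ s in Icc a b, ‖f (k + 1) (X s y) - f k (X s y)‖ₑ) +
          c * (ENNReal.ofReal (l y) * ∫⁻ s in Icc a b, ‖g k (X s y)‖ₑ)) := by gcongr
      _ = u k := by
          rw [mul_add, ← mul_assoc c⁻¹ c, ENNReal.inv_mul_cancel hc0 hct, one_mul]
  have hlim : ∀ t ∈ Icc a b, Tendsto (fun k => f k (X t y)) atTop
      (𝓝 (limUnder atTop fun k => f k (X t y))) := fun t ht =>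
    (cauchySeq_of_edist_le_of_tsum_ne_top u (hd t ht) hu).tendsto_limUnder
  rw [EMetric.tendstoUniformlyOn_iff]
  intro ε hε
  have h3 := ENNReal.tendsto_sum_nat_add u hu
  filter_upwards [(tendsto_order.1 h3).2 ε hε] with n hn t ht
  rw [edist_comm]
  refine lt_of_le_of_lt (edist_le_tsum_of_edist_le_of_tendsto u (hd t ht) (hlim t ht) n) ?_
  simpa only [add_comm] using hn

end Vale.Agent.P233.H561
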