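import Vale.Agent.P233.Gig.IfE
import Vale.Agent.P233.H561.Prec
import Mathlib.MeasureTheory.Constructions.Polish.StronglyMeasurable

/-!
# P233, block E1: precise representatives along almost every curve of every flow
-/

set_option linter.unusedSectionVars false

open MeasureTheory Filter Topology Set
open scoped ENNReal NNReal InnerProductSpace

universe u v

namespace Vale.Agent.P233.H561

section prelim

variable {M : Type u} [MetricSpace M] [MeasurableSpace M] {m : Measure M}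

theorem std_isGamma [BorelSpace M] [SecondCountableTopology M] {K N : ℝ} (h : Std m K N) :
    IsGamma (sob m) := isGamma_sob h.hfin h.rcd.quadratic h.rcd.sobolev_to_lipschitz

theorem cl_ae {f : M → ℝ} (h : AEStronglyMeasurable f m) : ⇑(cl m f) =ᵐ[m] f := by
  unfold cl
  rw [dif_pos h]
  exact AEEqFun.coeFn_mk f h

theorem dtr_lip (p : M) (R : ℝ) : LipschitzWith 1 (dtr p R) := by
  refine LipschitzWith.of_dist_le_mul fun x y => ?_
  have h1 : |dist p x - dist p y| ≤ dist x y := by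
    rw [dist_comm p x, dist_comm p y]; exact abs_dist_sub_le x y p
  unfold dtr
  rw [Real.dist_eq, NNReal.coe_one, one_mul, sub_sub_sub_cancel_right]
  exact (abs_min_sub_min_le_max _ _ _ _).trans (by simpa using h1)

theorem dtr_mem [BorelSpace M] (hfin : ∀ (x : M) (r : ℝ), m (Metric.ball x r) < ∞) (p : M)
    (R : ℝ) : cl m (dtr p R) ∈ (sob m).W := by
  have h := Met.good_of_bounded_support hfin (dtr_lip p R) (x₀ := p) (R := R) fun x hx => by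
    rw [Metric.mem_ball, not_lt, dist_comm] at hx
    unfold dtr
    rw [min_eq_right hx, sub_self]
  exact mem_sob_iff.2 (Met.W12.congr ⟨_, h.rSlope⟩
    (cl_ae (dtr_lip p R).continuous.measurable.aestronglyMeasurable).symm)

end prelim

section flow

variable {M : Type u} [MetricSpace M] [MeasurableSpace M] {m : Measure M}
variable {E : Type v} [NormedAddCommGroup E] [InnerProductSpace ℝ E]
  {Gr : (M →ₘ[m] ℝ) → M → E} {HO : (M →ₘ[m] ℝ) → M → E →L[ℝ] E} {p : M} {s₀ C₀ : ℝ}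
  {Y : ℝ → M → M}

/-- the points `1/(n+2)` -/
theorem Ioo_eq_iUnion : Ioo (0 : ℝ) 1 ⊆ ⋃ n : ℕ, Icc (1 / ((n : ℝ) + 2)) 1 := by
  intro t ht
  obtain ⟨n, hn⟩ := exists_nat_one_div_lt ht.1
  refine mem_iUnion.2 ⟨n, ?_, ht.2.le⟩
  refine le_trans ?_ hn.le
  exact one_div_le_one_div_of_le (by positivity) (by linarith)

theorem inv_mem (n : ℕ) : 1 / ((n : ℝ) + 2) ∈ Ioo (0 : ℝ) 1 := by
  constructor
  · positivity
  · rw [div_lt_one (by positivity)]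
    have : (0 : ℝ) ≤ n := n.cast_nonneg
    linarith

theorem Flow.exists_comp (h : Flow (m := m) Gr HO p s₀ C₀ Y) {s : ℝ} (hs : s ∈ Ioc (0 : ℝ) 1) :
    ∃ A : ℝ≥0, Comp m m Y s 1 A := by
  obtain ⟨A, hA⟩ := h.comp s hs
  exact ⟨A, h.meas, hA⟩

/-- null sets are avoided at almost every time -/
theorem Flow.ae_ae [SFinite m] (h : Flow (m := m) Gr HO p s₀ C₀ Y) {P : M → Prop}
    (hP : ∀ᵐ x ∂m, P x) : ∀ᵐ x ∂m, ∀ᵐ t ∂(volume.restrict (Ioo (0 : ℝ) 1)), P (Y t x) := by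
  set N : Set M := toMeasurable m {x | ¬ P x} with hN
  have hN0 : m N = 0 := by rw [hN, measure_toMeasurable]; exact hP
  have hNm : MeasurableSet N := measurableSet_toMeasurable _ _
  have hNP : ∀ x, x ∉ N → P x := fun x hx => by
    by_contra h'
    exact hx (subset_toMeasurable m _ h')
  have h1 : ∀ n : ℕ, ∀ᵐ x ∂m, ∀ᵐ t ∂(volume.restrict (Icc (1 / ((n : ℝ) + 2)) 1)), Y t x ∉ N := by
    intro n
    obtain ⟨A, hA⟩ := Flow.exists_comp h ⟨(inv_mem n).1, (inv_mem n).2.le⟩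
    have hi : Measurable (N.indicator fun _ => (1 : ℝ≥0∞)) := measurable_const.indicator hNm
    have h2 := hA.lintegral_lintegral_le hi (c := 1 / ((n : ℝ) + 2)) (d := 1) le_rfl
    rw [lintegral_indicator_const hNm, hN0, mul_zero, mul_zero, mul_zero, nonpos_iff_eq_zero] at h2
    have hm : Measurable fun x => ∫⁻ t in Icc (1 / ((n : ℝ) + 2)) 1,
        N.indicator (fun _ => (1 : ℝ≥0∞)) (Y t x) :=
      Measurable.lintegral_prod_left' (f := fun q : ℝ × M =>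
        N.indicator (fun _ => (1 : ℝ≥0∞)) (Y q.1 q.2)) (hi.comp h.meas)
    rw [lintegral_eq_zero_iff hm] at h2
    filter_upwards [h2] with x hx
    have hx' : ∫⁻ t in Icc (1 / ((n : ℝ) + 2)) 1, N.indicator (fun _ => (1 : ℝ≥0∞)) (Y t x) = 0 := hx
    have hm2 : Measurable fun t => N.indicator (fun _ => (1 : ℝ≥0∞)) (Y t x) :=
      hi.comp (h.meas.comp measurable_prodMk_right)
    rw [lintegral_eq_zero_iff hm2] at hx'
    filter_upwards [hx'] with t ht ht'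
    simp [ht'] at ht
  filter_upwards [ae_all_iff.2 h1] with x hx
  have h3 : ∀ᵐ t ∂(volume.restrict (⋃ n : ℕ, Icc (1 / ((n : ℝ) + 2)) 1)), Y t x ∉ N := by
    rw [ae_restrict_iUnion_iff]
    exact hx
  have h4 : ∀ᵐ t ∂(volume.restrict (Ioo (0 : ℝ) 1)), Y t x ∉ N :=
    ae_restrict_of_ae_restrict_of_subset Ioo_eq_iUnion h3
  filter_upwards [h4] with t ht using hNP _ ht

theorem contOn_prim {G : ℝ → ℝ} (h : ∀ s ∈ Ioo (0 : ℝ) 1, IntervalIntegrable G volume s 1) :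
    ContinuousOn (fun t => ∫ r in t..1, G r) (Ioc 0 1) := by
  intro t ht
  have hs : t / 2 ∈ Ioo (0 : ℝ) 1 := ⟨by linarith [ht.1], by linarith [ht.1, ht.2]⟩
  have h1 := h _ hs
  rw [intervalIntegrable_iff_integrableOn_Icc_of_le hs.2.le, ← uIcc_of_le hs.2.le] at h1
  have h2 := intervalIntegral.continuousOn_primitive_interval_left h1
  rw [uIcc_of_le hs.2.le] at h2
  have h3 : t ∈ Icc (t / 2) 1 := ⟨by linarith [ht.1], ht.2⟩
  refine (h2 t h3).mono_of_mem_nhdsWithin ?_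
  have h4 : Ioi (t / 2) ∈ 𝓝 t := Ioi_mem_nhds (by linarith [ht.1])
  filter_upwards [mem_nhdsWithin_of_mem_nhds h4, self_mem_nhdsWithin] with r h5 h6
  exact ⟨le_of_lt h5, h6.2⟩

theorem eq_all {f g : ℝ → ℝ} (h : ∀ᵐ t ∂(volume.restrict (Ioo (0 : ℝ) 1)), f t = g t)
    (hf : ContinuousOn f (Ioc 0 1)) (hg : ContinuousOn g (Ioc 0 1)) {t : ℝ} (ht : t ∈ Ioc (0 : ℝ) 1) :
    f t = g t := by
  rw [Measure.restrict_congr_set (Ioo_ae_eq_Ioc (μ := volume))] at h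
  exact Measure.eqOn_Ioc_of_ae_eq volume h hf hg ht

theorem spd_nonneg (p : M) {s₀ C₀ : ℝ} (h : 0 < s₀) (x : M) : 0 ≤ spd p s₀ C₀ x := by
  unfold spd
  split_ifs
  · positivity
  · exact le_rfl

theorem Flow.vel_norm [SFinite m] (h : Flow (m := m) Gr HO p s₀ C₀ Y) :
    ∀ᵐ x ∂m, ∀ᵐ t ∂(volume.restrict (Ioo (0 : ℝ) 1)),
      ‖vel Gr p s₀ C₀ Y t x‖ = spd p s₀ C₀ x := by
  filter_upwards [Flow.ae_ae h h.unit, h.rad] with x h1 h2
  filter_upwards [h1, ae_restrict_mem measurableSet_Ioo] with t ht ht'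
  unfold vel
  rw [norm_smul, Real.norm_eq_abs, abs_of_nonneg (spd_nonneg p h.hs₀ x)]
  by_cases hx : dist p x ^ 2 < 2 * C₀ * (1 + s₀)
  · have h3 := h2 hx t ⟨ht'.1, ht'.2.le⟩
    rw [ht, mul_one]
    rw [h3]
    have hs := h.hs₀
    have h4 : (t + s₀) / (1 + s₀) ≤ 1 := by
      rw [div_le_one (by linarith)]
      linarith [ht'.2]
    have h5 : 0 ≤ (t + s₀) / (1 + s₀) := by have := ht'.1; positivity
    have h6 : (t + s₀) / (1 + s₀) * dist p x ≤ dist p x :=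
      mul_le_of_le_one_left dist_nonneg h4
    have h7 : ((t + s₀) / (1 + s₀) * dist p x) ^ 2 ≤ dist p x ^ 2 :=
      pow_le_pow_left₀ (by positivity) h6 2
    linarith
  · unfold spd
    rw [if_neg hx, zero_mul]

theorem Flow.cont (h : Flow (m := m) Gr HO p s₀ C₀ Y) :
    ∀ᵐ x ∂m, ContinuousOn (fun t => Y t x) (Ioc 0 1) := by
  filter_upwards [h.geod] with x hx
  have h1 : LipschitzOnWith (spd p s₀ C₀ x).toNNReal (fun t => Y t x) (Ioc 0 1) := by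
    refine LipschitzOnWith.of_dist_le_mul fun s hs t ht => ?_
    rw [hx s hs t ht, Real.coe_toNNReal _ (spd_nonneg p h.hs₀ x), Real.dist_eq]
  exact h1.continuousOn

/-- the formula C3(a) for Lipschitz functions, at every time -/
theorem Flow.lip_formula [SFinite m] (h : Flow (m := m) Gr HO p s₀ C₀ Y) {b : M →ₘ[m] ℝ}
    (hb : b ∈ (sob m).W) {u : M → ℝ} (hu : Continuous u) (hbu : b =ᵐ[m] u) :
    ∀ᵐ x ∂m, ∀ t ∈ Ioc (0 : ℝ) 1,
      u (Y t x) = b x - ∫ r in t..1, ⟪Gr b (Y r x), vel Gr p s₀ C₀ Y r x⟫_ℝ := by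
  filter_upwards [h.ac1 b hb, Flow.ae_ae h hbu, Flow.cont h] with x h1 h2 h3 t ht
  refine eq_all (f := fun t => u (Y t x)) (g := fun t => b x - ∫ r in t..1,
    ⟪Gr b (Y r x), vel Gr p s₀ C₀ Y r x⟫_ℝ) ?_ (hu.comp_continuousOn h3)
    (continuousOn_const.sub (contOn_prim h1.1)) ht
  filter_upwards [h1.2, h2] with r r1 r2
  rw [← r2]
  exact r1

end flow

section E1

variable {M : Type u} [MetricSpace M] [MeasurableSpace M] {m : Measure M}
variable {E : Type v} [NormedAddCommGroup E] [InnerProductSpace ℝ E]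
  {Gr : (M →ₘ[m] ℝ) → M → E}

theorem lintegral_enorm_sq {u : M → E} (hu : MemLp u 2 m) :
    ∫⁻ x, ‖u x‖ₑ ^ 2 ∂m = ENNReal.ofReal (∫ x, ‖u x‖ ^ 2 ∂m) := by
  rw [ofReal_integral_eq_lintegral_ofReal (hu.integrable_norm_pow (by norm_num))
    (Eventually.of_forall fun x => by positivity)]
  refine lintegral_congr fun x => ?_
  rw [ENNReal.ofReal_pow (norm_nonneg _), ofReal_norm]

/-- fast Lipschitz approximations -/
theorem exists_fast [BorelSpace M] (hC : IsGamma (sob m)) {b : M →ₘ[m] ℝ} (hb : b ∈ (sob m).W) :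
    ∃ (f : ℕ → M →ₘ[m] ℝ) (u : ℕ → M → ℝ), (∀ k, f k ∈ (sob m).W) ∧ (∀ k, Continuous (u k)) ∧
      (∀ k, f k =ᵐ[m] u k) ∧ ∀ k, (sob m).nrm2 (f k - b) ≤ (4 : ℝ)⁻¹ ^ k := by
  have h1 : ∀ k : ℕ, ∃ (g : M →ₘ[m] ℝ) (u : M → ℝ), g ∈ (sob m).W ∧ Continuous u ∧ g =ᵐ[m] u ∧
      (sob m).nrm2 (g - b) ≤ (4 : ℝ)⁻¹ ^ k := by
    intro k
    obtain ⟨g, hg, h2, h3, h4⟩ := hC.dense_lip b hb ((4 : ℝ)⁻¹ ^ k) (by positivity)
    obtain ⟨u, ⟨K, hu⟩, _, h5⟩ := (hC.lip_iff g hg).2 ⟨h2, h3⟩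
    exact ⟨g, u, hg, hu.continuous, h5, by rw [hC.nrm2_sub_comm hg hb]; exact h4.le⟩
  choose f u h using h1
  exact ⟨f, u, fun k => (h k).1, fun k => (h k).2.1, fun k => (h k).2.2.1, fun k => (h k).2.2.2⟩

theorem tsum_fast {a : ℕ → ℝ} (ha : ∀ k, a k ≤ (4 : ℝ)⁻¹ ^ k) :
    ∑' k, 2 ^ k * ENNReal.ofReal (a k) ≠ ∞ := by
  have h1 : ∀ k, 2 ^ k * ENNReal.ofReal (a k) ≤ (2⁻¹ : ℝ≥0∞) ^ k := by
    intro k
    calc (2 : ℝ≥0∞) ^ k * ENNReal.ofReal (a k) ≤ 2 ^ k * ENNReal.ofReal ((4 : ℝ)⁻¹ ^ k) := by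
          gcongr
          exact ha k
      _ = ENNReal.ofReal ((2 : ℝ) ^ k) * ENNReal.ofReal ((4 : ℝ)⁻¹ ^ k) := by
          congr 1
          rw [ENNReal.ofReal_pow (by norm_num : (0 : ℝ) ≤ 2), ENNReal.ofReal_ofNat]
      _ = ENNReal.ofReal ((2 : ℝ)⁻¹ ^ k) := by
          rw [← ENNReal.ofReal_mul (by positivity), ← mul_pow]
          norm_num
      _ = (2⁻¹ : ℝ≥0∞) ^ k := by
          rw [ENNReal.ofReal_pow (by norm_num), ENNReal.ofReal_inv_of_pos (by norm_num),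
            ENNReal.ofReal_ofNat]
  refine ne_top_of_le_ne_top ?_ (ENNReal.tsum_le_tsum h1)
  rw [ENNReal.tsum_geometric]
  norm_num

theorem fast_ae {g : ℕ → M → ℝ≥0∞} (hg : ∀ k, AEMeasurable (g k) m)
    (h : ∑' k, 2 ^ k * ∫⁻ x, g k x ^ 2 ∂m ≠ ∞) : ∀ᵐ x ∂m, Tendsto (fun k => g k x) atTop (𝓝 0) := by
  have h1 : ∫⁻ x, ∑' k, g k x ^ 2 ∂m ≠ ∞ := by
    rw [lintegral_tsum fun k => (hg k).pow_const 2]
    refine ne_top_of_le_ne_top h (ENNReal.tsum_le_tsum fun k => ?_)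
    exact le_mul_of_one_le_left bot_le (one_le_pow₀ (by norm_num))
  filter_upwards [ae_lt_top' (AEMeasurable.tsum fun k => (hg k).pow_const 2) h1] with x hx
  have h2 := ENNReal.tendsto_atTop_zero_of_tsum_ne_top hx.ne
  have h3 := h2.ennrpow_const (1 / 2 : ℝ)
  rw [ENNReal.zero_rpow_of_pos (by norm_num)] at h3
  refine h3.congr fun k => ?_
  rw [← ENNReal.rpow_natCast, ← ENNReal.rpow_mul]
  norm_num

/-- the differences of the gradients -/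
theorem grad_fast (hG : IsGrad (sob m) Gr) (hC : IsDir (sob m)) {b : M →ₘ[m] ℝ}
    (hb : b ∈ (sob m).W) {f : ℕ → M →ₘ[m] ℝ} (hf : ∀ k, f k ∈ (sob m).W)
    (hn : ∀ k, (sob m).nrm2 (f k - b) ≤ (4 : ℝ)⁻¹ ^ k) :
    ∑' k, 2 ^ k * ∫⁻ x, ‖Gr (f k) x - Gr b x‖ₑ ^ 2 ∂m ≠ ∞ := by
  have h1 : ∀ k, ∫⁻ x, ‖Gr (f k) x - Gr b x‖ₑ ^ 2 ∂m =
      ENNReal.ofReal (I ((sob m).Γ (f k - b) (f k - b))) := by
    intro k
    rw [← hG.int_norm_sq (hC.sub_mem (hf k) hb), ← lintegral_enorm_sq (hG.mem _ (hC.sub_mem (hf k) hb))]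
    refine lintegral_congr_ae ?_
    filter_upwards [hG.sub hC (hf k) hb] with x hx
    rw [hx]
  simp_rw [h1]
  refine tsum_fast fun k => le_trans ?_ (hn k)
  exact hC.E_le_nrm2 _

theorem fn_fast (hC : IsDir (sob m)) {b : M →ₘ[m] ℝ}
    (hb : b ∈ (sob m).W) {f : ℕ → M →ₘ[m] ℝ} (hf : ∀ k, f k ∈ (sob m).W)
    (hn : ∀ k, (sob m).nrm2 (f k - b) ≤ (4 : ℝ)⁻¹ ^ k) :
    ∀ᵐ x ∂m, Tendsto (fun k => f k x) atTop (𝓝 (b x)) := by
  have h1 : ∀ k, ∫⁻ x, ‖(f k - b : M →ₘ[m] ℝ) x‖ₑ ^ 2 ∂m =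
      ENNReal.ofReal (I ((f k - b) ^ 2)) := by
    intro k
    have hm := hC.memLp _ (hC.sub_mem (hf k) hb)
    rw [lintegral_enorm_sq hm]
    congr 1
    refine integral_congr_ae ?_
    filter_upwards [sq_ae (f k - b)] with x hx
    rw [hx, Real.norm_eq_abs, sq_abs]
  have h2 := fast_ae (m := m) (g := fun k x => ‖(f k - b : M →ₘ[m] ℝ) x‖ₑ)
    (fun k => (AEEqFun.aestronglyMeasurable _).enorm) (by
      simp_rw [h1]
      exact tsum_fast fun k => (hC.I_sq_le_nrm2 (hC.sub_mem (hf k) hb)).trans (hn k))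
  filter_upwards [h2, ae_all_iff.2 fun k => sub_ae (f k) b] with x hx hx'
  rw [tendsto_iff_edist_tendsto_0]
  refine hx.congr fun k => ?_
  rw [hx' k, edist_eq_enorm_sub]

theorem Flow.grad_lim [SFinite m] {HO : (M →ₘ[m] ℝ) → M → E →L[ℝ] E} {p : M} {s₀ C₀ : ℝ}
    {Y : ℝ → M → M} (h : Flow (m := m) Gr HO p s₀ C₀ Y) (hG : IsGrad (sob m) Gr)
    (hGm : ∀ f ∈ (sob m).W, StronglyMeasurable (Gr f)) (hC : IsDir (sob m)) {b : M →ₘ[m] ℝ}
    (hb : b ∈ (sob m).W) {f : ℕ → M →ₘ[m] ℝ} (hf : ∀ k, f k ∈ (sob m).W)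
    (hn : ∀ k, (sob m).nrm2 (f k - b) ≤ (4 : ℝ)⁻¹ ^ k) :
    ∀ᵐ x ∂m, ∀ t ∈ Ioc (0 : ℝ) 1, Tendsto
      (fun k => ∫ r in t..1, ⟪Gr (f k) (Y r x), vel Gr p s₀ C₀ Y r x⟫_ℝ) atTop
      (𝓝 (∫ r in t..1, ⟪Gr b (Y r x), vel Gr p s₀ C₀ Y r x⟫_ℝ)) := by
  have h1 : ∀ n : ℕ, ∀ᵐ x ∂m, ∑' k, ∫⁻ r in Icc (1 / ((n : ℝ) + 2)) 1,
      ‖Gr (f k) (Y r x) - Gr b (Y r x)‖ₑ ≠ ∞ := by
    intro n
    obtain ⟨A, hA⟩ := Flow.exists_comp h ⟨(inv_mem n).1, (inv_mem n).2.le⟩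
    exact hA.tsum_curve (g := fun k x => ‖Gr (f k) x - Gr b x‖ₑ)
      (fun k => ((hGm _ (hf k)).sub (hGm _ hb)).enorm) (grad_fast hG hC hb hf hn)
  filter_upwards [ae_all_iff.2 h1, Flow.vel_norm h, h.ac1 b hb,
    ae_all_iff.2 fun k => h.ac1 (f k) (hf k)] with x x1 x2 x3 x4 t ht
  obtain ⟨n, hn'⟩ := exists_nat_one_div_lt ht.1
  have hnt : 1 / ((n : ℝ) + 2) ≤ t := by
    refine le_trans ?_ hn'.le
    exact one_div_le_one_div_of_le (by positivity) (by linarith)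
  have hi : ∀ {G : ℝ → ℝ}, (∀ s ∈ Ioo (0 : ℝ) 1, IntervalIntegrable G volume s 1) →
      IntervalIntegrable G volume t 1 := by
    intro G hG'
    rcases eq_or_lt_of_le ht.2 with h' | h'
    · rw [h']
    · exact hG' t ⟨ht.1, h'⟩
  rw [tendsto_iff_edist_tendsto_0]
  have h5 := ENNReal.tendsto_atTop_zero_of_tsum_ne_top (x1 n)
  have h6 := ENNReal.Tendsto.const_mul h5 (Or.inr (ENNReal.ofReal_ne_top (r := spd p s₀ C₀ x)))
  rw [mul_zero] at h6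
  refine tendsto_of_tendsto_of_tendsto_of_le_of_le tendsto_const_nhds h6 (fun _ => bot_le)
    fun k => ?_
  rw [edist_eq_enorm_sub, ← intervalIntegral.integral_sub (hi (x4 k).1) (hi x3.1)]
  refine (enorm_intervalIntegral_le (c := 1 / ((n : ℝ) + 2)) (d := 1) ⟨hnt, ht.2⟩
    ⟨hnt.trans ht.2, le_rfl⟩).trans ?_
  have hm : Measurable fun r => ‖Gr (f k) (Y r x) - Gr b (Y r x)‖ₑ :=
    (((hGm _ (hf k)).sub (hGm _ hb)).enorm).comp (h.meas.comp measurable_prodMk_right)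
  rw [← lintegral_const_mul _ hm]
  refine lintegral_mono_ae ?_
  have hsub : Icc (1 / ((n : ℝ) + 2)) 1 ⊆ Ioo (0 : ℝ) 1 ∪ {1} := fun r hr => by
    rcases eq_or_lt_of_le hr.2 with h' | h'
    · exact Or.inr h'
    · exact Or.inl ⟨lt_of_lt_of_le (inv_mem n).1 hr.1, h'⟩
  have hx2 : ∀ᵐ r ∂(volume.restrict (Icc (1 / ((n : ℝ) + 2)) 1)),
      ‖vel Gr p s₀ C₀ Y r x‖ = spd p s₀ C₀ x := by
    refine ae_restrict_of_ae_restrict_of_subset hsub ?_
    rw [ae_restrict_union_iff]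
    exact ⟨x2, by simp⟩
  filter_upwards [hx2] with r hr
  rw [← inner_sub_left]
  calc ‖⟪Gr (f k) (Y r x) - Gr b (Y r x), vel Gr p s₀ C₀ Y r x⟫_ℝ‖ₑ
      ≤ ‖Gr (f k) (Y r x) - Gr b (Y r x)‖ₑ * ‖vel Gr p s₀ C₀ Y r x‖ₑ := by
        rw [← ofReal_norm, ← ofReal_norm, ← ofReal_norm, ← ENNReal.ofReal_mul (norm_nonneg _)]
        exact ENNReal.ofReal_le_ofReal (norm_inner_le_norm _ _)
    _ = _ := by rw [← ofReal_norm (vel Gr p s₀ C₀ Y r x), hr, mul_comm]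

/-- **E1** -/
theorem blk_E1 : Blk_E1.{u} := by
  intro M _ _ _ _ m E _ _ _ Gr HO e K N hstd hS b hb
  have hC := std_isGamma hstd
  have : SigmaFinite m := sigmaFinite_of_ball hstd.hfin
  obtain ⟨f, w, hf, hw, hfw, hn⟩ := exists_fast hC hb
  have hlim := fn_fast hC.toIsDir hb hf hn
  refine ⟨fun x => limUnder atTop fun k => w k x, ?_, ?_, ?_⟩
  · exact (StronglyMeasurable.limUnder fun k => (hw k).stronglyMeasurable).measurable
  · filter_upwards [hlim, ae_all_iff.2 hfw] with x h1 h2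
    refine Tendsto.limUnder_eq (h1.congr fun k => h2 k)
  · intro p s₀ C₀ Y hF
    filter_upwards [hlim, Flow.grad_lim hF hS.grad hS.gmeas hC.toIsDir hb hf hn,
      ae_all_iff.2 fun k => Flow.lip_formula hF (hf k) (hw k) (hfw k)] with x h1 h2 h3 t ht
    refine Tendsto.limUnder_eq ?_
    have h4 := h1.sub (h2 t ht)
    exact h4.congr fun k => (h3 k t ht).symm

end E1

end Vale.Agent.P233.H561
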